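import Vale.Agent.H88.SF.Thin

/-!
# Languages determined by finitely many counters modulo `M` (board task SF-FINDET)

* `hasGSH_of_determined`: if membership of a word in `L` depends only on the residues modulo
  `M` of finitely many counters `f i`, and each language `modLang (f i) M r`
  (`= {w | f i w ≡ r [MOD M]}`, file CounterProduct) has generalized star height at most one,
  then so has `L`. Proof: with `classical`,
  `L = ⨆ r : ι → Fin M, ⨆ (_ : ∃ w ∈ L, ∀ i, f i w % M = r i),
        (⨆ i, (modLang (f i) M (r i))ᶜ)ᶜ`;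
  then `HasGSH.iSup`, `HasGSH.iSup_prop`, `HasGSH.compl` (file GSH).
* `nclock_comp`: `nclock s x c w` (file Thin) counts the positions of `w` carrying `x` such that
  the `s`-weights of the earlier letters sum to `c`. Pushing the weights forward along an
  additive hom `χ` adds up the counters over the fibres of `χ`. Proof: induction on the word
  from the right (`List.reverseRecOn`) with `nclock_nil`, `nclock_snoc`, `map_list_sum`,
  `Finset.sum_add_distrib`, `Finset.sum_ite_eq'`.
-/

namespace Vale.Agent.H88

open Language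

universe u

variable {α : Type u}

theorem hasGSH_of_determined {ι : Type*} [Fintype ι] (f : ι → List α → ℕ) (M : ℕ) (hM : 0 < M)
    (hf : ∀ i r, HasGSH (modLang (f i) M r) 1) (L : Language α)
    (hL : ∀ w w', (∀ i, f i w ≡ f i w' [MOD M]) → w ∈ L → w' ∈ L) : HasGSH L 1 := by
  classical
  have key : L = ⨆ r : ι → Fin M, ⨆ (_ : ∃ w ∈ L, ∀ i, f i w % M = (r i : ℕ)),
      (⨆ i, (modLang (f i) M (r i : ℕ))ᶜ)ᶜ := by
    ext w'
    rw [mem_iSup_lang]
    constructor
    · intro hw'
      refine ⟨fun i => ⟨f i w' % M, Nat.mod_lt _ hM⟩, ?_⟩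
      rw [mem_iSup_lang]
      refine ⟨⟨w', hw', fun i => rfl⟩, ?_⟩
      rw [mem_compl_lang, mem_iSup_lang]
      rintro ⟨i, hi⟩
      rw [mem_compl_lang] at hi
      apply hi
      rw [mem_modLang]
      exact (Nat.mod_modEq _ _).symm
    · rintro ⟨r, hr⟩
      rw [mem_iSup_lang] at hr
      obtain ⟨⟨w, hw, hwr⟩, hc⟩ := hr
      rw [mem_compl_lang, mem_iSup_lang] at hc
      refine hL w w' (fun i => ?_) hw
      have h1 : f i w' ≡ (r i : ℕ) [MOD M] := by
        by_contra hcon
        exact hc ⟨i, hcon⟩
      have h2 : f i w ≡ (r i : ℕ) [MOD M] := by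
        unfold Nat.ModEq
        rw [hwr i, Nat.mod_eq_of_lt (r i).isLt]
      exact h2.trans h1.symm
  rw [key]
  exact HasGSH.iSup_prop _ _ fun r _ =>
    (HasGSH.iSup _ fun i => (hf i (r i : ℕ)).compl).compl

theorem nclock_comp {V V' : Type*} [AddCommMonoid V] [AddCommMonoid V'] [Fintype V]
    [DecidableEq V'] (χ : V →+ V') (s : α → V) (x : α) (r : V') (w : List α) :
    nclock (fun a => χ (s a)) x r w = ∑ c : V, if χ c = r then nclock s x c w else 0 := by
  classical
  induction w using List.reverseRecOn with
  | nil =>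
    simp [nclock_nil]
  | append_singleton w a ih =>
    rw [nclock_snoc, ih]
    have hsum : (w.map (fun a => χ (s a))).sum = χ ((w.map s).sum) := by
      rw [map_list_sum, List.map_map]
      rfl
    rw [hsum]
    have hsplit : ∀ c : V, (if χ c = r then nclock s x c (w ++ [a]) else 0)
        = (if χ c = r then nclock s x c w else 0)
          + (if c = (w.map s).sum then (if a = x ∧ χ c = r then 1 else 0) else 0) := by
      intro c
      rw [nclock_snoc]
      by_cases h1 : χ c = r
      · by_cases h2 : (w.map s).sum = c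
        · by_cases h3 : a = x <;> simp [h1, h2, h3]
        · have h2' : ¬ c = (w.map s).sum := fun h => h2 h.symm
          simp [h1, h2, h2']
      · simp [h1]
    rw [Finset.sum_congr rfl (fun c _ => hsplit c), Finset.sum_add_distrib, Finset.sum_ite_eq']
    simp

end Vale.Agent.H88
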