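import Vale.Agent.H88.SF.ThinSeq

/-!
# No periodic run with nonzero weight, first-letter case (board task SF-THINFIRST)

EXACT statement to prove (do not change it): `thin_cycle_first`. Use the lemmas of the files
Thin and ThinSeq as black boxes (ThinSeq is being proved by another seat).

Setting: `p` prime, an infinite run `S` of `thinStep s ρ good` reading the word `W` of period
`L`, never visiting the gate `(ρ, none)`; the weights of one period sum to `d ≠ 0`; every good
block starts with `x`, and if `s x ≠ 0` a good block does not end with `x` (`hgood`).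
Claim: contradiction.

Proof sketch.
1. If the clock is `ρ` at time `i` then `W i = x`. Let `a := W i`. If `s a = 0`, then
   `S (i + 1)` is an arrival (`thinStep_arrive_of_ne`), the block is `[a]`, so
   `good (some a) a = true` and `a = x`. If `s a ≠ 0`, then `S (i + 1) = (ρ + s a, some a)`
   (`thinStep_leave`). The clock is `ρ` again at time `i + p * L` (`thinSeq_fst_period`,
   `p • d = 0` in `ZMod p`), so there is a least `j > i` with clock `ρ` at time `j`
   (`Nat.find`); `j ≥ i + 2`, and at the times `i + 1, ..., j - 1` the clock is not `ρ`, so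
   `(S (j - 1)).2 = some a` (`thinSeq_keep` from `i + 1`), and `S j` is an arrival from a
   state with clock `≠ ρ`: `good (some a) (W (j - 1)) = true`, so `a = x`.
2. Every letter is `x`: by `thinSeq_hits` there is `k` with clock `ρ` at time `i + k * L`, so
   `W (i + k * L) = x`, and `W (i + k * L) = W i` (`periodic_mul`).
3. `d = L • s x ≠ 0` gives `s x ≠ 0`; `good (some x) x = false` by `hgood`; the clock is `ρ` at
   some time (`thinSeq_hits`); conclude with `thinSeq_allx_false`.
-/

namespace Vale.Agent.H88

universe u

variable {α : Type u} {p : ℕ}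

theorem thin_cycle_first [Fact p.Prime] (s : α → ZMod p) (ρ : ZMod p)
    (good : Option α → α → Bool) (x : α)
    (hgood : ∀ o l, good o l = true → o = some x ∧ (s x ≠ 0 → l ≠ x))
    {L : ℕ} {W : ℕ → α} {S : ℕ → ZMod p × Option α} (hL : 0 < L)
    (hW : ∀ i, W (i + L) = W i) (hS : ∀ i, S (i + 1) = thinStep s ρ good (S i) (W i))
    (havoid : ∀ i, S i ≠ (ρ, none))
    (hd : ∑ j ∈ Finset.range L, s (W j) ≠ 0) : False := by
  have hp : 0 < p := (Fact.out : p.Prime).pos
  -- Step 1: whenever the clock is `ρ`, the next letter is `x`.
  have step1 : ∀ i, (S i).1 = ρ → W i = x := by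
    intro i hi
    by_cases hsa : s (W i) = 0
    · have harr : (S i).1 + s (W i) = ρ := by rw [hsa, add_zero, hi]
      have hne : thinStep s ρ good (S i) (W i) ≠ (ρ, none) := by
        rw [← hS i]; exact havoid (i + 1)
      have h2 := (thinStep_arrive_of_ne s ρ good harr hne).2
      rw [if_pos hi] at h2
      exact Option.some.inj (hgood _ _ h2).1
    · have hleave : (S i).1 + s (W i) ≠ ρ := by
        rw [hi]
        intro h
        exact hsa (by simpa using h)
      have hS1 : S (i + 1) = ((S i).1 + s (W i), some (W i)) := by
        rw [hS i]; exact thinStep_leave s ρ good hi hleave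
      have hex : ∃ m, 0 < m ∧ (S (i + m)).1 = ρ := by
        refine ⟨p * L, Nat.mul_pos hp hL, ?_⟩
        rw [thinSeq_fst_period s ρ good hS hW i p, hi, nsmul_eq_mul, ZMod.natCast_self,
          zero_mul, add_zero]
      classical
      have hspec := Nat.find_spec hex
      have hmin : ∀ m, m < Nat.find hex → ¬ (0 < m ∧ (S (i + m)).1 = ρ) :=
        fun m hm => Nat.find_min hex hm
      generalize Nat.find hex = m₀ at hspec hmin
      obtain ⟨hm0, hm0ρ⟩ := hspec
      have hm1 : m₀ ≠ 1 := by
        intro h1
        subst h1
        rw [hS1] at hm0ρ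
        exact hleave hm0ρ
      obtain ⟨k, rfl⟩ : ∃ k, m₀ = k + 2 := ⟨m₀ - 2, by omega⟩
      have hkeep : (S (i + 1 + k)).2 = (S (i + 1)).2 := by
        apply thinSeq_keep s ρ good hS (i + 1) k
        intro j hj hρ
        exact hmin (1 + j) (by omega) ⟨by omega, by rw [← add_assoc]; exact hρ⟩
      have hk2 : (S (i + 1 + k)).2 = some (W i) := by
        rw [hkeep, hS1]
      have hkne : (S (i + 1 + k)).1 ≠ ρ := by
        intro hρ
        exact hmin (1 + k) (by omega) ⟨by omega, by rw [← add_assoc]; exact hρ⟩
      have hnext : S (i + (k + 2)) = thinStep s ρ good (S (i + 1 + k)) (W (i + 1 + k)) := by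
        have e : i + (k + 2) = i + 1 + k + 1 := by omega
        rw [e]
        exact hS (i + 1 + k)
      have harr : (S (i + 1 + k)).1 + s (W (i + 1 + k)) = ρ := by
        have h3 := congrArg Prod.fst hnext
        rw [thinStep_fst] at h3
        rw [← h3]
        exact hm0ρ
      have hne : thinStep s ρ good (S (i + 1 + k)) (W (i + 1 + k)) ≠ (ρ, none) := by
        rw [← hnext]; exact havoid _
      have h2 := (thinStep_arrive_of_ne s ρ good harr hne).2
      rw [if_neg hkne, hk2] at h2
      exact Option.some.inj (hgood _ _ h2).1
  -- Step 2: every letter is `x`.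
  have hWx : ∀ i, W i = x := by
    intro i
    obtain ⟨k, hk⟩ := thinSeq_hits s ρ good hS hW hd i ρ
    rw [← periodic_mul hW i k]
    exact step1 _ hk
  -- Step 3: the weight of `x` is nonzero, the block `x ... x` is not good.
  have hsx : s x ≠ 0 := by
    intro h0
    apply hd
    apply Finset.sum_eq_zero
    intro j _
    rw [hWx j, h0]
  have hbad : good (some x) x = false := by
    by_contra h
    have h' : good (some x) x = true := by simpa using h
    exact (hgood _ _ h').2 hsx rfl
  obtain ⟨k, hk⟩ := thinSeq_hits s ρ good hS hW hd 0 ρ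
  exact thinSeq_allx_false s ρ good hS x hsx hbad hWx (0 + k * L) hk havoid

end Vale.Agent.H88
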