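import Vale.Agent.H88.SF.ThinSeq

/-!
# No periodic run with nonzero weight, last-letter case (board task SF-THINLAST)

EXACT statement to prove (do not change it): `thin_cycle_last`. Use the lemmas of the files
Thin and ThinSeq as black boxes (ThinSeq is being proved by another seat).

Setting: `p` prime, an infinite run `S` of `thinStep s ρ good` reading the word `W` of period
`L`, never visiting the gate `(ρ, none)`; the weights of one period sum to `d ≠ 0`; every good
block ends with `x`, and if `s x ≠ 0` a good block does not start with `x` (`hgood`).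
Claim: contradiction.

Proof sketch.
1. If the clock is `ρ` at time `i + 1` then `W i = x`: `S (i + 1)` is an arrival and not the
   gate, so `thinStep_arrive_of_ne` gives `good _ (W i) = true`, and `hgood` gives `W i = x`.
2. Every letter is `x`: by `thinSeq_hits` (with `r := ρ - s (W i)`) there is `k` such that the
   clock at time `i + k * L` is `ρ - s (W i)`; since `W (i + k * L) = W i` (`periodic_mul`) the
   clock at time `i + k * L + 1` is `ρ` (`thinStep_fst`), so `W (i + k * L) = x`.
3. `d = L • s x ≠ 0` gives `s x ≠ 0`; `good (some x) x = false` by `hgood`; the clock is `ρ` at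
   some time (`thinSeq_hits`); conclude with `thinSeq_allx_false`.
-/

namespace Vale.Agent.H88

universe u

variable {α : Type u} {p : ℕ}

theorem thin_cycle_last [Fact p.Prime] (s : α → ZMod p) (ρ : ZMod p)
    (good : Option α → α → Bool) (x : α)
    (hgood : ∀ o l, good o l = true → l = x ∧ (s x ≠ 0 → o ≠ some x))
    {L : ℕ} {W : ℕ → α} {S : ℕ → ZMod p × Option α} (hL : 0 < L)
    (hW : ∀ i, W (i + L) = W i) (hS : ∀ i, S (i + 1) = thinStep s ρ good (S i) (W i))
    (havoid : ∀ i, S i ≠ (ρ, none))
    (hd : ∑ j ∈ Finset.range L, s (W j) ≠ 0) : False := by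
  -- step 1: an arrival at clock value `ρ` reads the letter `x`
  have step1 : ∀ i, (S (i + 1)).1 = ρ → W i = x := by
    intro i hi
    have h1 : (S i).1 + s (W i) = ρ := by
      rw [hS i, thinStep_fst] at hi
      exact hi
    have hG : thinStep s ρ good (S i) (W i) ≠ (ρ, none) := by
      rw [← hS i]
      exact havoid (i + 1)
    exact (hgood _ _ (thinStep_arrive_of_ne s ρ good h1 hG).2).1
  -- step 2: every letter is `x`
  have hWx : ∀ i, W i = x := by
    intro i
    obtain ⟨k, hk⟩ := thinSeq_hits s ρ good hS hW hd i (ρ - s (W i))
    have hper : W (i + k * L) = W i := periodic_mul hW i k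
    have h2 : (S (i + k * L + 1)).1 = ρ := by
      rw [hS (i + k * L), thinStep_fst, hk, hper, sub_add_cancel]
    rw [← hper]
    exact step1 (i + k * L) h2
  -- step 3
  have hx : s x ≠ 0 := by
    intro h0
    apply hd
    apply Finset.sum_eq_zero
    intro j _
    rw [hWx j, h0]
  have hbad : good (some x) x = false := by
    cases hg : good (some x) x with
    | false => rfl
    | true => exact absurd rfl ((hgood (some x) x hg).2 hx)
  obtain ⟨k, hk⟩ := thinSeq_hits s ρ good hS hW hd 0 ρ
  exact thinSeq_allx_false s ρ good hS x hx hbad hWx (0 + k * L) hk havoid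

end Vale.Agent.H88
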