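import Vale.Agent.H88.SF.ThinSeq

/-!
# Periodic runs of the thin clock automaton with total weight zero (board task SF-THINZERO)

Main statement: `thin_cycle_zero` (proved below; the lemmas of the files Thin and ThinSeq are
used as black boxes).

Setting: an infinite run `S` of `thinStep s ρ good` reading the word `W` of period `L`, never
visiting the gate state with clock `ρ` and no stored letter, periodic with period `N * L`, and
the weights of one period of `W` sum to `0`. Claim: `S L = S 0`.

Proof. By `thinSeq_fst_period` the clock at time `i + k * L` equals the clock at time `i`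
(lemma `tz_clock`). A state with clock `ρ` reached by a step of the run is not the gate, so by
`thinStep_arrive_of_ne` it stores the letter just read (lemma `tz_arrive`).
* If the clock is `ρ` at some time `j + 1 ≤ L` (this includes the case of clock `ρ` at time
  `0`, because then the clock is `ρ` at time `L`): for all `k` the states at the times
  `j + 1 + k * L` and `j + 1` coincide (same clock `ρ`, same stored letter by `periodic_mul`),
  hence the states at the times `j + 1 + i + k * L` and `j + 1 + i` coincide for all `i`
  (same letters), in particular `S L = S (N * L) = S 0`.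
* Otherwise the clock differs from `ρ` at all times `0, ..., L`: `thinSeq_keep` gives equal
  second components of `S L` and `S 0`, and the clocks agree.
-/

namespace Vale.Agent.H88

universe u

variable {α : Type u} {p : ℕ}

/-- A state with clock `ρ` reached by a step of an avoiding run stores the letter just read. -/
theorem tz_arrive (s : α → ZMod p) (ρ : ZMod p) (good : Option α → α → Bool)
    {W : ℕ → α} {S : ℕ → ZMod p × Option α}
    (hS : ∀ i, S (i + 1) = thinStep s ρ good (S i) (W i))
    (havoid : ∀ i, S i ≠ (ρ, none)) (i : ℕ) (h : (S (i + 1)).1 = ρ) :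
    S (i + 1) = (ρ, some (W i)) := by
  have h1 : (S i).1 + s (W i) = ρ := by
    rw [← thinStep_fst s ρ good (S i) (W i), ← hS i]
    exact h
  have h2 : thinStep s ρ good (S i) (W i) ≠ (ρ, none) := by
    rw [← hS i]
    exact havoid (i + 1)
  rw [hS i]
  exact (thinStep_arrive_of_ne s ρ good h1 h2).1

/-- With total weight zero on a period of the word, the clock is periodic. -/
theorem tz_clock (s : α → ZMod p) (ρ : ZMod p) (good : Option α → α → Bool)
    {L : ℕ} {W : ℕ → α} {S : ℕ → ZMod p × Option α}
    (hW : ∀ i, W (i + L) = W i) (hS : ∀ i, S (i + 1) = thinStep s ρ good (S i) (W i))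
    (hd : ∑ j ∈ Finset.range L, s (W j) = 0) (i k : ℕ) :
    (S (i + k * L)).1 = (S i).1 := by
  rw [thinSeq_fst_period s ρ good hS hW i k, hd, smul_zero, add_zero]

theorem thin_cycle_zero (s : α → ZMod p) (ρ : ZMod p) (good : Option α → α → Bool)
    {L N : ℕ} {W : ℕ → α} {S : ℕ → ZMod p × Option α} (hL : 0 < L) (hN : 0 < N)
    (hW : ∀ i, W (i + L) = W i) (hS : ∀ i, S (i + 1) = thinStep s ρ good (S i) (W i))
    (havoid : ∀ i, S i ≠ (ρ, none)) (hper : ∀ i, S (i + N * L) = S i)
    (hd : ∑ j ∈ Finset.range L, s (W j) = 0) : S L = S 0 := by
  have hclock : ∀ i k, (S (i + k * L)).1 = (S i).1 :=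
    fun i k => tz_clock s ρ good hW hS hd i k
  have harr : ∀ i, (S (i + 1)).1 = ρ → S (i + 1) = (ρ, some (W i)) :=
    fun i h => tz_arrive s ρ good hS havoid i h
  by_cases hex : ∃ j, j < L ∧ (S (j + 1)).1 = ρ
  · obtain ⟨j, hjL, hj⟩ := hex
    have hbase : ∀ k, S (j + 1 + k * L) = S (j + 1) := by
      intro k
      have e : j + 1 + k * L = (j + k * L) + 1 := by ring
      have h1 : (S ((j + k * L) + 1)).1 = ρ := by
        rw [← e, hclock (j + 1) k]
        exact hj
      rw [e, harr (j + k * L) h1, harr j hj, periodic_mul hW j k]
    have hall : ∀ k i, S (j + 1 + i + k * L) = S (j + 1 + i) := by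
      intro k i
      induction i with
      | zero => simpa using hbase k
      | succ i ih =>
        have e : j + 1 + (i + 1) + k * L = (j + 1 + i + k * L) + 1 := by ring
        have e2 : j + 1 + (i + 1) = (j + 1 + i) + 1 := by ring
        rw [e, e2, hS (j + 1 + i + k * L), hS (j + 1 + i), ih,
          periodic_mul hW (j + 1 + i) k]
    obtain ⟨M, rfl⟩ : ∃ M, N = M + 1 := ⟨N - 1, by omega⟩
    have e4 : j + 1 + (L - (j + 1)) = L := by omega
    have e3 : j + 1 + (L - (j + 1)) + M * L = 0 + (M + 1) * L := by
      rw [e4]
      ring
    have hfin := hall M (L - (j + 1))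
    rw [e3, e4, hper 0] at hfin
    exact hfin.symm
  · have hne : ∀ j, j < L → (S (j + 1)).1 ≠ ρ := fun j hj h => hex ⟨j, hj, h⟩
    have hL1 : (S L).1 = (S 0).1 := by
      have h01 := hclock 0 1
      simpa using h01
    have h0 : (S 0).1 ≠ ρ := by
      rw [← hL1]
      have h1 := hne (L - 1) (by omega)
      have e : L - 1 + 1 = L := by omega
      rwa [e] at h1
    have hkeep : (S (0 + L)).2 = (S 0).2 := by
      apply thinSeq_keep s ρ good hS 0 L
      intro j hj
      rcases Nat.eq_zero_or_pos j with rfl | hpos
      · simpa using h0
      · have h1 := hne (j - 1) (by omega)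
        have e : j - 1 + 1 = j := by omega
        rw [e] at h1
        simpa using h1
    rw [zero_add] at hkeep
    exact Prod.ext hL1 hkeep

end Vale.Agent.H88
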