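import Vale.Agent.H88.SF.SinkSeq
import Vale.Agent.H88.SF.ThinZero
import Vale.Agent.H88.SF.ThinFirst
import Vale.Agent.H88.SF.ThinLast

/-!
# The thin clock automaton with the gate turned into a sink is counter-free
-/

namespace Vale.Agent.H88

universe u

variable {α : Type u} {p : ℕ}

/-- For a prime `p`, if all good blocks start with `x` (and do not end with `x` when `x` moves
the clock), or all good blocks end with `x` (and do not start with `x` when `x` moves the
clock), then the thin clock automaton with its gate turned into a sink is counter-free. -/
theorem thin_counterFree [DecidableEq α] [Fact p.Prime] (s : α → ZMod p) (ρ : ZMod p)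
    (good : Option α → α → Bool) (x : α)
    (hgood : (∀ o l, good o l = true → o = some x ∧ (s x ≠ 0 → l ≠ x)) ∨
      (∀ o l, good o l = true → l = x ∧ (s x ≠ 0 → o ≠ some x))) :
    CounterFree (sinkStep (thinStep s ρ good) (ρ, none)) := by
  apply counterFree_sinkStep_of_seq
  intro L N W S hL hN hW hS havoid hper
  by_cases hd : ∑ j ∈ Finset.range L, s (W j) = 0
  · exact thin_cycle_zero s ρ good hL hN hW hS havoid hper hd
  · rcases hgood with h | h
    · exact (thin_cycle_first s ρ good x h hL hW hS havoid hd).elim
    · exact (thin_cycle_last s ρ good x h hL hW hS havoid hd).elim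

end Vale.Agent.H88
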