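import Vale.Agent.H88.SF.ThinGood

/-!
# Counting identity for the thin clock automata, clock letters (board task SF-IDC)

EXACT statement to prove (do not change it): `thin_id_clock`. The definitions `good1`, `good2`,
`thinE` are in file ThinGood. The proof is by induction on the word from the right
(`List.reverseRecOn`), using `visits_nil`, `visits_snoc` (file CoreB, proved by another seat),
`nclock_nil`, `nclock_snoc`, `thin_foldl_fst`, `thinStep_of_ne`, `thinStep_leave`,
`thinStep_arrive` (file Thin) and `List.foldl_append`.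

Notation: `R g w := w.foldl (thinStep s ρ g) (0, none)`; its first component (the clock) is
`(w.map s).sum` for every `g` (`thin_foldl_fst`). `nclock s x c w` counts the letters `x` of `w`
read at clock `c`; `visits δ (0, none) (ρ, none) w` counts the `i ≤ |w|` with
`R g (w.take i) = (ρ, none)`.

`thin_id_clock`. Strengthen the induction with the invariant
`(w.map s).sum ≠ ρ → R (good1 x) w = R (good2 x) w` (away from `ρ` both automata hold the
first letter of the current block). Appending a letter `a` at clock `c := (w.map s).sum`,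
with `o := (R (good1 x) w).2`:
* `c + s a ≠ ρ`: no visit counter changes; `nclock s x (ρ - s x)` does not change;
  `nclock s x ρ` increases iff `c = ρ ∧ a = x`, and exactly then `thinE` goes from `0` to `1`;
  if `c ≠ ρ` then `thinE` is unchanged.
* `c + s a = ρ`, `c = ρ` (so `s a = 0`): both `nclock` increase iff `a = x`; both visit
  counters increase (the block `[a]` is neither `good1` nor `good2`); `thinE` is `0` before and
  after.
* `c + s a = ρ`, `c ≠ ρ`: `nclock s x ρ` is unchanged; `nclock s x (ρ - s x)` increases iff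
  `a = x`; the first visit counter increases iff not (`o = some x ∧ a ≠ x`); the second iff
  not (`o ≠ some x ∧ a = x`); `thinE` was `1` iff `o = some x` and becomes `0`.
  Check the four cases of (`o = some x`, `a = x`).
-/

namespace Vale.Agent.H88

universe u

variable {α : Type u} {p : ℕ} [DecidableEq α]

omit [DecidableEq α] in
theorem idc_fst (s : α → ZMod p) (ρ : ZMod p) (g : Option α → α → Bool) (w : List α) :
    (w.foldl (thinStep s ρ g) (0, none)).1 = (w.map s).sum := by
  rw [thin_foldl_fst]
  simp

omit [DecidableEq α] in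
theorem idc_snoc (s : α → ZMod p) (ρ : ZMod p) (g : Option α → α → Bool) (w : List α) (a : α) :
    (w ++ [a]).foldl (thinStep s ρ g) (0, none)
      = thinStep s ρ g (w.foldl (thinStep s ρ g) (0, none)) a := by
  rw [List.foldl_append]
  rfl

theorem idc_good1_self (x a : α) : good1 x (some a) a = false := by
  unfold good1
  simp

theorem idc_good2_self (x a : α) : good2 x (some a) a = false := by
  unfold good2
  simp

theorem idc_arr (s : α → ZMod p) (ρ : ZMod p) (g : Option α → α → Bool) (a : α) (c : ZMod p)
    (o : Option α) (hc : c + s a = ρ) (hcρ : c ≠ ρ) :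
    (if thinStep s ρ g (c, o) a = (ρ, none) then 1 else 0 : ℕ)
      = if g o a = true then 0 else 1 := by
  rw [thinStep_arrive s ρ g hc]
  by_cases hg : g o a = true
  · simp [hcρ, hg]
  · simp [hcρ, hg]

theorem idc_good1_iff (x a : α) (o : Option α) :
    good1 x o a = true ↔ (o = some x ∧ a ≠ x) := by
  unfold good1
  simp

theorem idc_good2_iff (x a : α) (o : Option α) :
    good2 x o a = true ↔ (o ≠ some x ∧ a = x) := by
  unfold good2
  simp

/-- The one-letter step of the identity, with the two automata states abstracted. -/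
theorem idc_step (s : α → ZMod p) (ρ : ZMod p) (x a : α) (c : ZMod p) (o1 o2 : Option α)
    (N1 V1 N2 V2 : ℕ)
    (ih1 : N1 + V1 = N2 + V2 + (if c ≠ ρ ∧ o1 = some x then 1 else 0))
    (ih2 : c ≠ ρ → o1 = o2) :
    (N1 + (if a = x ∧ c = ρ then 1 else 0)
        + (V1 + (if thinStep s ρ (good1 x) (c, o1) a = (ρ, none) then 1 else 0))
      = N2 + (if a = x ∧ c = ρ - s x then 1 else 0)
        + (V2 + (if thinStep s ρ (good2 x) (c, o2) a = (ρ, none) then 1 else 0))
        + (if (thinStep s ρ (good1 x) (c, o1) a).1 ≠ ρ
            ∧ (thinStep s ρ (good1 x) (c, o1) a).2 = some x then 1 else 0))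
    ∧ (c + s a ≠ ρ → thinStep s ρ (good1 x) (c, o1) a = thinStep s ρ (good2 x) (c, o2) a) := by
  by_cases hc : c + s a = ρ
  · refine ⟨?_, fun h => absurd hc h⟩
    have hE1 : (if (thinStep s ρ (good1 x) (c, o1) a).1 ≠ ρ
        ∧ (thinStep s ρ (good1 x) (c, o1) a).2 = some x then 1 else 0 : ℕ) = 0 :=
      if_neg (fun h => h.1 (by rw [thinStep_fst]; exact hc))
    rw [hE1]
    by_cases hcρ : c = ρ
    · -- the clock stays at `ρ`
      have hsa : s a = 0 := by
        rw [hcρ] at hc
        simpa using hc
      have t1 : thinStep s ρ (good1 x) (c, o1) a = (ρ, none) := by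
        rw [thinStep_arrive s ρ (good1 x) hc]
        simp [hcρ, idc_good1_self]
      have t2 : thinStep s ρ (good2 x) (c, o2) a = (ρ, none) := by
        rw [thinStep_arrive s ρ (good2 x) hc]
        simp [hcρ, idc_good2_self]
      have hJ1 : (if thinStep s ρ (good1 x) (c, o1) a = (ρ, none) then 1 else 0 : ℕ) = 1 :=
        if_pos t1
      have hJ2 : (if thinStep s ρ (good2 x) (c, o2) a = (ρ, none) then 1 else 0 : ℕ) = 1 :=
        if_pos t2
      have hE0 : (if c ≠ ρ ∧ o1 = some x then 1 else 0 : ℕ) = 0 := if_neg (fun h => h.1 hcρ)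
      rw [hE0] at ih1
      rw [hJ1, hJ2]
      by_cases hax : a = x
      · have hcx : c = ρ - s x := by rw [← hax, hsa, sub_zero]; exact hcρ
        rw [if_pos (show a = x ∧ c = ρ from ⟨hax, hcρ⟩),
          if_pos (show a = x ∧ c = ρ - s x from ⟨hax, hcx⟩)]
        omega
      · rw [if_neg (show ¬ (a = x ∧ c = ρ) from fun h => hax h.1),
          if_neg (show ¬ (a = x ∧ c = ρ - s x) from fun h => hax h.1)]
        omega
    · -- the clock arrives at `ρ`
      have ho : o1 = o2 := ih2 hcρ
      subst ho
      rw [idc_arr s ρ (good1 x) a c o1 hc hcρ, idc_arr s ρ (good2 x) a c o1 hc hcρ]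
      rw [if_neg (show ¬ (a = x ∧ c = ρ) from fun h => hcρ h.2)]
      by_cases hax : a = x
      · have hcx : c = ρ - s x := by rw [← hax, ← hc]; simp
        rw [if_pos (show a = x ∧ c = ρ - s x from ⟨hax, hcx⟩)]
        have g1 : ¬ (good1 x o1 a = true) := by
          rw [idc_good1_iff]
          exact fun h => h.2 hax
        rw [if_neg g1]
        by_cases ho : o1 = some x
        · have g2 : ¬ (good2 x o1 a = true) := by
            rw [idc_good2_iff]
            exact fun h => h.1 ho
          rw [if_neg g2]
          rw [if_pos (show c ≠ ρ ∧ o1 = some x from ⟨hcρ, ho⟩)] at ih1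
          omega
        · have g2 : good2 x o1 a = true := by
            rw [idc_good2_iff]
            exact ⟨ho, hax⟩
          rw [if_pos g2]
          rw [if_neg (show ¬ (c ≠ ρ ∧ o1 = some x) from fun h => ho h.2)] at ih1
          omega
      · rw [if_neg (show ¬ (a = x ∧ c = ρ - s x) from fun h => hax h.1)]
        have g2 : ¬ (good2 x o1 a = true) := by
          rw [idc_good2_iff]
          exact fun h => hax h.2
        rw [if_neg g2]
        by_cases ho : o1 = some x
        · have g1 : good1 x o1 a = true := by
            rw [idc_good1_iff]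
            exact ⟨ho, hax⟩
          rw [if_pos g1]
          rw [if_pos (show c ≠ ρ ∧ o1 = some x from ⟨hcρ, ho⟩)] at ih1
          omega
        · have g1 : ¬ (good1 x o1 a = true) := by
            rw [idc_good1_iff]
            exact fun h => ho h.1
          rw [if_neg g1]
          rw [if_neg (show ¬ (c ≠ ρ ∧ o1 = some x) from fun h => ho h.2)] at ih1
          omega
  · -- the clock does not arrive at `ρ`
    have hne1 : ∀ (g : Option α → α → Bool) (o : Option α),
        thinStep s ρ g (c, o) a ≠ (ρ, none) := by
      intro g o h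
      have := congrArg Prod.fst h
      rw [thinStep_fst] at this
      exact hc this
    have hcx : ¬ (a = x ∧ c = ρ - s x) := by
      rintro ⟨h1, h2⟩
      apply hc
      rw [h1, h2]
      simp
    rw [if_neg (hne1 _ _), if_neg (hne1 _ _), if_neg hcx]
    by_cases hcρ : c = ρ
    · have t1 : thinStep s ρ (good1 x) (c, o1) a = (c + s a, some a) :=
        thinStep_leave s ρ (good1 x) hcρ hc
      have t2 : thinStep s ρ (good2 x) (c, o2) a = (c + s a, some a) :=
        thinStep_leave s ρ (good2 x) hcρ hc
      refine ⟨?_, fun _ => by rw [t1, t2]⟩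
      have hE0 : (if c ≠ ρ ∧ o1 = some x then 1 else 0 : ℕ) = 0 := if_neg (fun h => h.1 hcρ)
      rw [hE0] at ih1
      rw [t1]
      by_cases hax : a = x
      · have hE1 : (if ((c + s a, some a) : ZMod p × Option α).1 ≠ ρ
            ∧ ((c + s a, some a) : ZMod p × Option α).2 = some x then 1 else 0 : ℕ) = 1 :=
          if_pos ⟨hc, by rw [hax]⟩
        rw [hE1, if_pos (show a = x ∧ c = ρ from ⟨hax, hcρ⟩)]
        omega
      · have hE1 : (if ((c + s a, some a) : ZMod p × Option α).1 ≠ ρ
            ∧ ((c + s a, some a) : ZMod p × Option α).2 = some x then 1 else 0 : ℕ) = 0 :=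
          if_neg (fun h => hax (Option.some.inj h.2))
        rw [hE1, if_neg (show ¬ (a = x ∧ c = ρ) from fun h => hax h.1)]
        omega
    · have ho : o1 = o2 := ih2 hcρ
      subst ho
      have t1 : thinStep s ρ (good1 x) (c, o1) a = (c + s a, o1) :=
        thinStep_of_ne s ρ (good1 x) hcρ hc
      have t2 : thinStep s ρ (good2 x) (c, o1) a = (c + s a, o1) :=
        thinStep_of_ne s ρ (good2 x) hcρ hc
      refine ⟨?_, fun _ => by rw [t1, t2]⟩
      rw [t1]
      rw [if_neg (show ¬ (a = x ∧ c = ρ) from fun h => hcρ h.2)]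
      by_cases ho : o1 = some x
      · have hE1 : (if ((c + s a, o1) : ZMod p × Option α).1 ≠ ρ
            ∧ ((c + s a, o1) : ZMod p × Option α).2 = some x then 1 else 0 : ℕ) = 1 :=
          if_pos ⟨hc, ho⟩
        rw [hE1]
        rw [if_pos (show c ≠ ρ ∧ o1 = some x from ⟨hcρ, ho⟩)] at ih1
        omega
      · have hE1 : (if ((c + s a, o1) : ZMod p × Option α).1 ≠ ρ
            ∧ ((c + s a, o1) : ZMod p × Option α).2 = some x then 1 else 0 : ℕ) = 0 :=
          if_neg (fun h => ho h.2)
        rw [hE1]
        rw [if_neg (show ¬ (c ≠ ρ ∧ o1 = some x) from fun h => ho h.2)] at ih1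
        omega

theorem idc_key (s : α → ZMod p) (ρ : ZMod p) (x : α) (w : List α) :
    (nclock s x ρ w + visits (thinStep s ρ (good1 x)) (0, none) (ρ, none) w =
        nclock s x (ρ - s x) w + visits (thinStep s ρ (good2 x)) (0, none) (ρ, none) w +
          thinE s ρ x w) ∧
      ((w.map s).sum ≠ ρ → w.foldl (thinStep s ρ (good1 x)) (0, none)
          = w.foldl (thinStep s ρ (good2 x)) (0, none)) := by
  induction w using List.reverseRecOn with
  | nil =>
    refine ⟨?_, fun _ => rfl⟩
    rw [nclock_nil, nclock_nil, visits_nil, visits_nil]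
    unfold thinE
    simp
  | append_singleton w a ih =>
    obtain ⟨ih1, ih2⟩ := ih
    have h1 := idc_fst s ρ (good1 x) w
    have h2 := idc_fst s ρ (good2 x) w
    have e1 := idc_snoc s ρ (good1 x) w a
    have e2 := idc_snoc s ρ (good2 x) w a
    have hsum : ((w ++ [a]).map s).sum = (w.map s).sum + s a := by simp
    have hE : thinE s ρ x (w ++ [a])
        = if (thinStep s ρ (good1 x) (w.foldl (thinStep s ρ (good1 x)) (0, none)) a).1 ≠ ρ
            ∧ (thinStep s ρ (good1 x) (w.foldl (thinStep s ρ (good1 x)) (0, none)) a).2 = some x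
          then 1 else 0 := by
      unfold thinE
      rw [e1]
    have hE0 : thinE s ρ x w
        = if (w.foldl (thinStep s ρ (good1 x)) (0, none)).1 ≠ ρ
            ∧ (w.foldl (thinStep s ρ (good1 x)) (0, none)).2 = some x then 1 else 0 := rfl
    rw [nclock_snoc, nclock_snoc, visits_snoc, visits_snoc, hsum, e1, e2, hE]
    rw [hE0] at ih1
    generalize w.foldl (thinStep s ρ (good1 x)) (0, none) = st1 at *
    generalize w.foldl (thinStep s ρ (good2 x)) (0, none) = st2 at *
    obtain ⟨c1, o1⟩ := st1
    obtain ⟨c2, o2⟩ := st2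
    simp only at h1 h2
    subst h1 h2
    have ih2' : (w.map s).sum ≠ ρ → o1 = o2 := by
      intro h
      have := ih2 h
      exact (Prod.mk.inj this).2
    convert idc_step s ρ x a (w.map s).sum o1 o2 (nclock s x ρ w)
      (visits (thinStep s ρ (good1 x)) (0, none) (ρ, none) w) (nclock s x (ρ - s x) w)
      (visits (thinStep s ρ (good2 x)) (0, none) (ρ, none) w) ih1 ih2'

theorem thin_id_clock (s : α → ZMod p) (ρ : ZMod p) (x : α) (w : List α) :
    nclock s x ρ w + visits (thinStep s ρ (good1 x)) (0, none) (ρ, none) w =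
      nclock s x (ρ - s x) w + visits (thinStep s ρ (good2 x)) (0, none) (ρ, none) w +
        thinE s ρ x w :=
  (idc_key s ρ x w).1

end Vale.Agent.H88
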