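import Vale.Agent.H88.SF.ThinGood

/-!
# Counting identity for the thin clock automata, neutral letters (board task SF-IDN)

EXACT statement to prove (do not change it): `thin_id_neutral`. The definitions `goodN`, `good0`
are in file ThinGood. The proof is by induction on the word from the right
(`List.reverseRecOn`), using `visits_nil`, `visits_snoc` (file CoreB, proved by another seat),
`nclock_nil`, `nclock_snoc`, `thin_foldl_fst`, `thinStep_of_ne`, `thinStep_leave`,
`thinStep_arrive` (file Thin) and `List.foldl_append`.

Notation: `R g w := w.foldl (thinStep s ρ g) (0, none)`; its first component (the clock) is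
`(w.map s).sum` for every `g` (`thin_foldl_fst`). `nclock s x c w` counts the letters `x` of `w`
read at clock `c`; `visits δ (0, none) (ρ, none) w` counts the `i ≤ |w|` with
`R g (w.take i) = (ρ, none)`.

`thin_id_neutral` (`s x = 0`): appending `a` at clock `c`: if `c + s a ≠ ρ` nothing changes
(if `a = x` then `c + s a = c`, so `c ≠ ρ`); if `c + s a = ρ` the `good0` counter increases,
the `goodN` counter increases iff `a ≠ x`, and `nclock s x ρ` increases iff `a = x` (then
`c = ρ`).
-/

namespace Vale.Agent.H88

universe u

variable {α : Type u} {p : ℕ} [DecidableEq α]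

omit [DecidableEq α] in
theorem idn_foldl_snoc (δ : ZMod p × Option α → α → ZMod p × Option α) (w : List α) (a : α) :
    (w ++ [a]).foldl δ (0, none) = δ (w.foldl δ (0, none)) a := by
  rw [List.foldl_append]
  rfl

theorem thin_id_neutral (s : α → ZMod p) (ρ : ZMod p) (x : α) (hx : s x = 0) (w : List α) :
    nclock s x ρ w + visits (thinStep s ρ (goodN x)) (0, none) (ρ, none) w =
      visits (thinStep s ρ (good0 (α := α))) (0, none) (ρ, none) w := by
  induction w using List.reverseRecOn with
  | nil =>
    rw [nclock_nil, visits_nil, visits_nil, zero_add]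
  | append_singleton w a ih =>
    rw [nclock_snoc, visits_snoc, visits_snoc, ← ih]
    have hcN := thin_foldl_fst s ρ (goodN x) w (0, none)
    have hc0 := thin_foldl_fst s ρ (good0 (α := α)) w (0, none)
    rw [zero_add] at hcN hc0
    have hfN := idn_foldl_snoc (thinStep s ρ (goodN x)) w a
    have hf0 := idn_foldl_snoc (thinStep s ρ (good0 (α := α))) w a
    by_cases h : (w.map s).sum + s a = ρ
    · have hN : (w.foldl (thinStep s ρ (goodN x)) (0, none)).1 + s a = ρ := by
        rw [hcN]
        exact h
      have h0 : (w.foldl (thinStep s ρ (good0 (α := α))) (0, none)).1 + s a = ρ := by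
        rw [hc0]
        exact h
      have e0 : (w ++ [a]).foldl (thinStep s ρ (good0 (α := α))) (0, none) = (ρ, none) := by
        rw [hf0, thinStep_arrive s ρ _ h0]
        simp [good0]
      by_cases hax : a = x
      · have hsum : (w.map s).sum = ρ := by
          rw [← h, hax, hx, add_zero]
        have eN : ¬ ((w ++ [a]).foldl (thinStep s ρ (goodN x)) (0, none) = (ρ, none)) := by
          rw [hfN, thinStep_arrive s ρ _ hN]
          simp [goodN, hax]
        rw [if_pos ⟨hax, hsum⟩, if_neg eN, if_pos e0]
        omega
      · have eN : (w ++ [a]).foldl (thinStep s ρ (goodN x)) (0, none) = (ρ, none) := by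
          rw [hfN, thinStep_arrive s ρ _ hN]
          simp [goodN, hax]
        rw [if_neg (fun hh => hax hh.1), if_pos eN, if_pos e0]
        omega
    · have hN : (w.foldl (thinStep s ρ (goodN x)) (0, none)).1 + s a ≠ ρ := by
        rw [hcN]
        exact h
      have h0 : (w.foldl (thinStep s ρ (good0 (α := α))) (0, none)).1 + s a ≠ ρ := by
        rw [hc0]
        exact h
      have eN : ¬ ((w ++ [a]).foldl (thinStep s ρ (goodN x)) (0, none) = (ρ, none)) := by
        rw [hfN]
        intro hh
        have h1 := congrArg Prod.fst hh
        rw [thinStep_fst] at h1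
        exact hN h1
      have e0 : ¬ ((w ++ [a]).foldl (thinStep s ρ (good0 (α := α))) (0, none) = (ρ, none)) := by
        rw [hf0]
        intro hh
        have h1 := congrArg Prod.fst hh
        rw [thinStep_fst] at h1
        exact h0 h1
      have e2 : ¬ (a = x ∧ (w.map s).sum = ρ) := by
        rintro ⟨hax, hsum⟩
        apply h
        rw [hax, hx, add_zero]
        exact hsum
      rw [if_neg e2, if_neg eN, if_neg e0]
      omega

end Vale.Agent.H88
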