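import Vale.Agent.H88.SF.Gate
import Vale.Agent.H88.SF.ThinCF
import Vale.Agent.H88.SF.ThinIdC
import Vale.Agent.H88.SF.ThinIdN
import Vale.Agent.H88.Odometer

/-!
# Counting letters read at a prescribed clock value, modulo `m`

For a prime `p`, a weight function `s : α → ZMod p`, a letter `x`, a clock value `ρ` and a
modulus `m ≥ 1`, the language of all words in which the number of occurrences of `x` preceded
by letters of total weight `ρ` is congruent to `c` modulo `m` has generalized star height at
most one (`hasGSH_nclock`).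
-/

namespace Vale.Agent.H88

open Language

universe u

variable {α : Type u}

theorem hasGSH_lincomb {f g h : List α → ℕ} (k m : ℕ) (hk : 0 < k) (hm : 0 < m)
    (hid : ∀ w, k * f w + g w = h w) (hg : ∀ r, HasGSH (modLang g (k * m) r) 1)
    (hh : ∀ r, HasGSH (modLang h (k * m) r) 1) (c : ℕ) : HasGSH (modLang f m c) 1 := by
  have hkm : 0 < k * m := Nat.mul_pos hk hm
  have key : HasGSH (⨆ r : Fin (k * m),
      modLang g (k * m) r ⊓ modLang h (k * m) (k * c + r)) 1 :=
    HasGSH.iSup _ fun r => (hg r).inf (hh _)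
  refine key.of_eq ?_
  ext w
  rw [Language.mem_iSup]
  constructor
  · rintro ⟨r, h1, h2⟩
    have h1' : g w ≡ r [MOD k * m] := h1
    have h2' : h w ≡ k * c + r [MOD k * m] := h2
    rw [← hid w] at h2'
    have h3 : k * f w + g w ≡ k * f w + r [MOD k * m] := h1'.add_left _
    have h4 : k * f w + r ≡ k * c + r [MOD k * m] := h3.symm.trans h2'
    exact Nat.ModEq.mul_left_cancel' hk.ne' (Nat.ModEq.add_right_cancel' _ h4)
  · intro hw
    have hw' : f w ≡ c [MOD m] := hw
    refine ⟨⟨g w % (k * m), Nat.mod_lt _ hkm⟩, ?_, ?_⟩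
    · exact (Nat.mod_modEq _ _).symm
    · change h w ≡ k * c + g w % (k * m) [MOD k * m]
      rw [← hid w]
      exact (Nat.ModEq.mul_left' k hw').add (Nat.mod_modEq _ _).symm

theorem hasGSH_modLang_add {f g : List α → ℕ} (m : ℕ) (hm : 0 < m)
    (hf : ∀ r, HasGSH (modLang f m r) 1) (hg : ∀ r, HasGSH (modLang g m r) 1) (r : ℕ) :
    HasGSH (modLang (fun w => f w + g w) m r) 1 := by
  have h := hasGSH_sum_modEq (Finset.univ : Finset Bool) (fun b => if b then f else g) m hm
    (by
      intro b _ c
      cases b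
      · simpa using hg c
      · simpa using hf c) r
  refine h.of_eq ?_
  ext w
  change (∑ b : Bool, (if b then f else g) w) ≡ r [MOD m] ↔ f w + g w ≡ r [MOD m]
  rw [Fintype.sum_bool]
  simp

theorem hasGSH_modLang_indicator {E : Language α} (hE : HasGSH E 1) {f : List α → ℕ}
    (h1 : ∀ w ∈ E, f w = 1) (h0 : ∀ w, w ∉ E → f w = 0) (m r : ℕ) :
    HasGSH (modLang f m r) 1 := by
  have key : HasGSH ((E ⊓ ({_w | 1 ≡ r [MOD m]} : Language α)) ⊔
      (Eᶜ ⊓ ({_w | 0 ≡ r [MOD m]} : Language α))) 1 :=
    (hE.inf (hasGSH_const _ 1)).sup (hE.compl.inf (hasGSH_const _ 1))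
  refine key.of_eq ?_
  ext w
  by_cases hw : w ∈ E
  · have e : w ∈ modLang f m r ↔ 1 ≡ r [MOD m] := by
      rw [mem_modLang, h1 w hw]
    rw [e]
    constructor
    · rintro (⟨_, h⟩ | ⟨h, _⟩)
      · exact h
      · exact absurd hw h
    · intro h
      exact Or.inl ⟨hw, h⟩
  · have e : w ∈ modLang f m r ↔ 0 ≡ r [MOD m] := by
      rw [mem_modLang, h0 w hw]
    rw [e]
    constructor
    · rintro (⟨h, _⟩ | ⟨_, h⟩)
      · exact absurd h hw
      · exact h
    · intro h
      exact Or.inr ⟨hw, h⟩

theorem nclock_sum_all {V : Type*} [AddMonoid V] [Fintype V] [DecidableEq α] (s : α → V)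
    (x : α) (w : List α) : ∑ c : V, nclock s x c w = w.count x := by
  classical
  induction w using List.reverseRecOn with
  | nil => simp [nclock_nil]
  | append_singleton w a ih =>
    simp only [nclock_snoc, Finset.sum_add_distrib, ih, List.count_append]
    congr 1
    by_cases hax : a = x
    · subst hax
      simp
    · simp [hax]

theorem sum_range_zmod {p : ℕ} [Fact p.Prime] (F : ZMod p → ℕ) (ρ s : ZMod p) (hs : s ≠ 0) :
    ∑ j ∈ Finset.range p, F (ρ - j • s) = ∑ c : ZMod p, F c := by
  have e1 : ∑ c : ZMod p, F c = ∑ z : ZMod p, F (ρ - z * s) :=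
    (Fintype.sum_equiv ((Equiv.mulRight₀ s hs).trans (Equiv.subLeft ρ)) _ _
      (fun z => by simp)).symm
  rw [e1]
  refine Finset.sum_nbij' (fun j => (j : ZMod p)) (fun z => z.val) ?_ ?_ ?_ ?_ ?_
  · intro j _
    exact Finset.mem_univ _
  · intro z _
    exact Finset.mem_range.2 (ZMod.val_lt z)
  · intro j hj
    exact ZMod.val_natCast_of_lt (Finset.mem_range.1 hj)
  · intro z _
    exact ZMod.natCast_zmod_val z
  · intro j _
    rw [nsmul_eq_mul]

section core

variable [Fintype α] [DecidableEq α] {p : ℕ} [Fact p.Prime]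

theorem hasGSH_thinVisits (s : α → ZMod p) (ρ : ZMod p) (good : Option α → α → Bool) (x : α)
    (hgood : (∀ o l, good o l = true → o = some x ∧ (s x ≠ 0 → l ≠ x)) ∨
      (∀ o l, good o l = true → l = x ∧ (s x ≠ 0 → o ≠ some x)))
    (m : ℕ) (hm : 0 < m) (r : ℕ) :
    HasGSH (modLang (visits (thinStep s ρ good) (0, none) (ρ, none)) m r) 1 :=
  hasGSH_visits (thinStep s ρ good) (ρ, none) (thin_counterFree s ρ good x hgood) (0, none) m hm r

omit [Fintype α] in
theorem good1_spec (s : α → ZMod p) (x : α) :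
    ∀ o l, good1 x o l = true → o = some x ∧ (s x ≠ 0 → l ≠ x) := by
  intro o l h
  have h' : o = some x ∧ l ≠ x := by simpa [good1] using h
  exact ⟨h'.1, fun _ => h'.2⟩

omit [Fintype α] in
theorem good2_spec (s : α → ZMod p) (x : α) :
    ∀ o l, good2 x o l = true → l = x ∧ (s x ≠ 0 → o ≠ some x) := by
  intro o l h
  have h' : o ≠ some x ∧ l = x := by simpa [good2] using h
  exact ⟨h'.2, fun _ => h'.1⟩

omit [Fintype α] in
theorem goodN_spec (s : α → ZMod p) (x : α) (hx : s x = 0) :
    ∀ o l, goodN x o l = true → l = x ∧ (s x ≠ 0 → o ≠ some x) := by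
  intro o l h
  have h' : l = x := by simpa [goodN] using h
  exact ⟨h', fun h'' => absurd hx h''⟩

omit [Fintype α] [DecidableEq α] in
theorem good0_spec (s : α → ZMod p) (x : α) :
    ∀ o l, good0 (α := α) o l = true → o = some x ∧ (s x ≠ 0 → l ≠ x) := by
  intro o l h
  simp [good0] at h

theorem hasGSH_thinE (s : α → ZMod p) (ρ : ZMod p) (x : α) (m r : ℕ) :
    HasGSH (modLang (thinE s ρ x) m r) 1 := by
  have hE : HasGSH (⨆ c : ZMod p, ⨆ (_ : c ≠ ρ),
      pathLang (thinStep s ρ (good1 x)) (0, none) (c, some x)) 1 :=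
    HasGSH.iSup_prop _ _ fun c _ =>
      hasGSH_pathLang_of_gate (thinStep s ρ (good1 x)) (ρ, none)
        (thin_counterFree s ρ (good1 x) x (Or.inl (good1_spec s x))) _ _
  have hmem : ∀ w : List α, w ∈ (⨆ c : ZMod p, ⨆ (_ : c ≠ ρ),
      pathLang (thinStep s ρ (good1 x)) (0, none) (c, some x)) ↔
      (w.foldl (thinStep s ρ (good1 x)) (0, none)).1 ≠ ρ ∧
        (w.foldl (thinStep s ρ (good1 x)) (0, none)).2 = some x := by
    intro w
    simp only [Language.mem_iSup, mem_pathLang]
    constructor
    · rintro ⟨c, hc, h⟩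
      rw [h]
      exact ⟨hc, rfl⟩
    · rintro ⟨h1, h2⟩
      exact ⟨_, h1, Prod.ext rfl h2⟩
  refine hasGSH_modLang_indicator hE ?_ ?_ m r
  · intro w hw
    unfold thinE
    rw [if_pos ((hmem w).1 hw)]
  · intro w hw
    unfold thinE
    rw [if_neg (fun h => hw ((hmem w).2 h))]

/-- **Counting letters at a clock value.** -/
theorem hasGSH_nclock (s : α → ZMod p) (x : α) (ρ : ZMod p) (m : ℕ) (hm : 0 < m) (c : ℕ) :
    HasGSH (modLang (nclock s x ρ) m c) 1 := by
  by_cases hx : s x = 0
  · refine hasGSH_lincomb (f := nclock s x ρ)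
      (g := visits (thinStep s ρ (goodN x)) (0, none) (ρ, none))
      (h := visits (thinStep s ρ (good0 (α := α))) (0, none) (ρ, none)) 1 m one_pos hm ?_ ?_ ?_ c
    · intro w
      rw [one_mul]
      exact thin_id_neutral s ρ x hx w
    · intro r
      exact hasGSH_thinVisits s ρ (goodN x) x (Or.inr (goodN_spec s x hx)) _
        (Nat.mul_pos one_pos hm) r
    · intro r
      exact hasGSH_thinVisits s ρ good0 x (Or.inl (good0_spec s x)) _
        (Nat.mul_pos one_pos hm) r
  · have hp : 0 < p := (Fact.out : p.Prime).pos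
    have hpm : 0 < p * m := Nat.mul_pos hp hm
    refine hasGSH_lincomb (f := nclock s x ρ)
      (g := fun w => ∑ j ∈ Finset.range p, ∑ i ∈ Finset.range j,
        visits (thinStep s (ρ - i • s x) (good1 x)) (0, none) (ρ - i • s x, none) w)
      (h := fun w => (w.count x + ∑ j ∈ Finset.range p, ∑ i ∈ Finset.range j,
        visits (thinStep s (ρ - i • s x) (good2 x)) (0, none) (ρ - i • s x, none) w) +
          ∑ j ∈ Finset.range p, ∑ i ∈ Finset.range j, thinE s (ρ - i • s x) x w)
      p m hp hm ?_ ?_ ?_ c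
    · intro w
      have tele : ∀ j : ℕ, nclock s x ρ w + ∑ i ∈ Finset.range j,
          visits (thinStep s (ρ - i • s x) (good1 x)) (0, none) (ρ - i • s x, none) w =
          nclock s x (ρ - j • s x) w + ∑ i ∈ Finset.range j,
            visits (thinStep s (ρ - i • s x) (good2 x)) (0, none) (ρ - i • s x, none) w +
            ∑ i ∈ Finset.range j, thinE s (ρ - i • s x) x w := by
        intro j
        induction j with
        | zero => simp
        | succ j ih =>
          have hid := thin_id_clock s (ρ - j • s x) x w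
          have e : ρ - j • s x - s x = ρ - (j + 1) • s x := by
            rw [succ_nsmul, sub_sub]
          rw [e] at hid
          rw [Finset.sum_range_succ, Finset.sum_range_succ, Finset.sum_range_succ]
          omega
      have hsum := Finset.sum_congr (rfl : Finset.range p = Finset.range p)
        (fun j _ => tele j)
      rw [Finset.sum_add_distrib, Finset.sum_add_distrib, Finset.sum_add_distrib,
        Finset.sum_const, Finset.card_range, smul_eq_mul,
        sum_range_zmod (fun c => nclock s x c w) ρ (s x) hx, nclock_sum_all] at hsum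
      exact hsum
    · exact hasGSH_sum_modEq _ _ _ hpm fun j _ => hasGSH_sum_modEq _ _ _ hpm fun i _ r =>
        hasGSH_thinVisits s _ (good1 x) x (Or.inl (good1_spec s x)) _ hpm r
    · refine hasGSH_modLang_add _ hpm (hasGSH_modLang_add _ hpm ?_ ?_) ?_
      · intro r
        exact hasGSH_count x (p * m) hpm r
      · exact hasGSH_sum_modEq _ _ _ hpm fun j _ => hasGSH_sum_modEq _ _ _ hpm fun i _ r =>
          hasGSH_thinVisits s _ (good2 x) x (Or.inr (good2_spec s x)) _ hpm r
      · exact hasGSH_sum_modEq _ _ _ hpm fun j _ => hasGSH_sum_modEq _ _ _ hpm fun i _ r =>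
          hasGSH_thinE s _ x _ r

end core

end Vale.Agent.H88
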