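import Vale.Agent.H88.SF.Thin

/-!
# Products in a group with an abelian normal subgroup (board task SF-GRPPROD)

EXACT statement to prove (do not change it): `prod_eq_of_nclock_modEq`.

Setting: `π : G →* Multiplicative V` is a homomorphism from a finite group to (the
multiplicative version of) a finite additive commutative group `V` of exponent dividing `e`,
with commutative kernel (`hab`); `φ : α → G` assigns group elements to letters and
`s a := Multiplicative.toAdd (π (φ a))` is the weight of the letter `a`. The counter
`nclock s x c w` (file Thin; lemmas `nclock_nil`, `nclock_snoc`) is the number of positions of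
`w` carrying the letter `x` such that the weights of the earlier letters sum to `c`.
Claim: the product `(w.map φ).prod` is determined by the residues of all these counters modulo
`e * Fintype.card G`.

Proof sketch. Work with `classical`.
1. Clock: `Multiplicative.toAdd (π (w.map φ).prod) = (w.map s).sum` (induction), and
   `(w.map s).sum = ∑ x, ∑ c, nclock s x c w • s x` (induction from the right with
   `nclock_snoc`). Since `e • v = 0`, counters congruent modulo `e` give the same clock.
2. Transversal: `t c := if h : ∃ g, π g = Multiplicative.ofAdd c then h.choose else 1`, and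
   `κ c y := if π (t c) = Multiplicative.ofAdd c then t c * φ y * (t (c + s y))⁻¹ else 1`.
   Every `κ c y` lies in the kernel of `π`; all elements of the kernel commute.
3. Product formula, by induction on `w` from the right:
   `(w.map φ).prod = K w * t ((w.map s).sum)`, where `K w` is the product over all pairs
   `(c, y)` of `κ c y ^ nclock s y c w`. To write this product either put a `CommGroup`
   structure on `↥π.ker` (`{ (inferInstance : Group ↥π.ker) with mul_comm := ... }`) and use
   `Finset.prod`, or use `Finset.noncommProd` in `G`. Appending a letter `y` multiplies `K` by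
   `κ ((w.map s).sum) y` because `t ((w.map s).sum) * φ y = κ _ y * t ((w.map s).sum + s y)`
   (the clock value `(w.map s).sum` is in the range of `π`).
4. `g ^ n = g ^ n'` whenever `n ≡ n' [MOD Fintype.card G]` (`pow_eq_pow_iff_modEq`,
   `orderOf_dvd_card`, `Nat.ModEq.of_dvd`). Conclude from 1 and 3.
-/

namespace Vale.Agent.H88

universe u

variable {α : Type u}

theorem prod_eq_of_nclock_modEq [Fintype α] {G : Type*} [Group G] [Fintype G] {V : Type*}
    [AddCommGroup V] [Fintype V] (e : ℕ) (hV : ∀ v : V, e • v = 0)
    (π : G →* Multiplicative V) (hab : ∀ a b : G, π a = 1 → π b = 1 → a * b = b * a)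
    (φ : α → G) (w w' : List α)
    (h : ∀ (x : α) (c : V),
      nclock (fun a => Multiplicative.toAdd (π (φ a))) x c w ≡
        nclock (fun a => Multiplicative.toAdd (π (φ a))) x c w' [MOD e * Fintype.card G]) :
    (w.map φ).prod = (w'.map φ).prod := by
  classical
  -- the weight of a letter
  have hclock : ∀ u : List α, π ((u.map φ).prod) =
      Multiplicative.ofAdd ((u.map fun a => Multiplicative.toAdd (π (φ a))).sum) := by
    intro u
    induction u with
    | nil => simp
    | cons a u ih =>
      rw [List.map_cons, List.prod_cons, map_mul, ih, List.map_cons, List.sum_cons, ofAdd_add]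
      rfl
  have hsum : ∀ u : List α, (u.map fun a => Multiplicative.toAdd (π (φ a))).sum =
      ∑ x : α, ∑ c : V,
        nclock (fun a => Multiplicative.toAdd (π (φ a))) x c u • Multiplicative.toAdd (π (φ x)) := by
    intro u
    induction u using List.reverseRecOn with
    | nil => simp [nclock_nil]
    | append_singleton u a ih =>
      rw [List.map_append, List.sum_append, ih]
      simp only [nclock_snoc, add_smul, Finset.sum_add_distrib]
      congr 1
      rw [Finset.sum_eq_single a, Finset.sum_eq_single
        ((u.map fun a => Multiplicative.toAdd (π (φ a))).sum)]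
      · simp
      · intro c _ hc
        rw [if_neg (fun hh => hc hh.2.symm), zero_smul]
      · intro hh
        exact absurd (Finset.mem_univ _) hh
      · intro x _ hx
        apply Finset.sum_eq_zero
        intro c _
        rw [if_neg (fun hh => hx hh.1.symm), zero_smul]
      · intro hh
        exact absurd (Finset.mem_univ _) hh
  have hmod : ∀ (v : V) (n n' : ℕ), n ≡ n' [MOD e] → n • v = n' • v := by
    intro v n n' hnn
    have key : ∀ k : ℕ, k • v = (k % e) • v := by
      intro k
      conv_lhs => rw [← Nat.div_add_mod k e]
      rw [add_smul, mul_smul, hV, zero_add]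
    have hnn' : n % e = n' % e := hnn
    rw [key n, key n', hnn']
  have hcl : (w.map fun a => Multiplicative.toAdd (π (φ a))).sum =
      (w'.map fun a => Multiplicative.toAdd (π (φ a))).sum := by
    rw [hsum w, hsum w']
    refine Finset.sum_congr rfl fun x _ => Finset.sum_congr rfl fun c _ => ?_
    exact hmod _ _ _ ((h x c).of_dvd (dvd_mul_right e _))
  -- a transversal of the range of `π`
  let t : V → G := fun c => if hc : ∃ g, π g = Multiplicative.ofAdd c then hc.choose else 1
  have ht : ∀ c, (∃ g, π g = Multiplicative.ofAdd c) → π (t c) = Multiplicative.ofAdd c := by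
    intro c hc
    simp only [t, dif_pos hc]
    exact hc.choose_spec
  let κ : V → α → G := fun c y =>
    if π (t c) = Multiplicative.ofAdd c then
      t c * φ y * (t (c + Multiplicative.toAdd (π (φ y))))⁻¹ else 1
  have hκ : ∀ c y, π (κ c y) = 1 := by
    intro c y
    by_cases hc : π (t c) = Multiplicative.ofAdd c
    · have h1 : π (t c * φ y) = Multiplicative.ofAdd (c + Multiplicative.toAdd (π (φ y))) := by
        rw [map_mul, hc, ofAdd_add]
        rfl
      have h2 := ht (c + Multiplicative.toAdd (π (φ y))) ⟨_, h1⟩
      simp only [κ, if_pos hc]
      rw [map_mul, map_inv, h2, h1, mul_inv_cancel]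
    · simp only [κ, if_neg hc, map_one]
  -- the kernel is commutative
  let _ : CommGroup π.ker :=
    { (inferInstance : Group π.ker) with
      mul_comm := fun a b =>
        Subtype.ext (hab a b (MonoidHom.mem_ker.1 a.2) (MonoidHom.mem_ker.1 b.2)) }
  let κ' : V → α → π.ker := fun c y => ⟨κ c y, MonoidHom.mem_ker.2 (hκ c y)⟩
  let K : List α → π.ker := fun u =>
    ∏ y : α, ∏ c : V, κ' c y ^ nclock (fun a => Multiplicative.toAdd (π (φ a))) y c u
  have hK_snoc : ∀ (u : List α) (y : α), K (u ++ [y]) =
      K u * κ' ((u.map fun a => Multiplicative.toAdd (π (φ a))).sum) y := by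
    intro u y
    simp only [K, nclock_snoc, pow_add, Finset.prod_mul_distrib]
    congr 1
    rw [Finset.prod_eq_single y, Finset.prod_eq_single
      ((u.map fun a => Multiplicative.toAdd (π (φ a))).sum)]
    · simp
    · intro c _ hc
      rw [if_neg (fun hh => hc hh.2.symm), pow_zero]
    · intro hh
      exact absurd (Finset.mem_univ _) hh
    · intro x _ hx
      apply Finset.prod_eq_one
      intro c _
      rw [if_neg (fun hh => hx hh.1.symm), pow_zero]
    · intro hh
      exact absurd (Finset.mem_univ _) hh
  have hmain : ∀ u : List α, t 0 * (u.map φ).prod =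
      (K u : G) * t ((u.map fun a => Multiplicative.toAdd (π (φ a))).sum) := by
    intro u
    induction u using List.reverseRecOn with
    | nil =>
      have hK1 : K [] = 1 := by
        simp only [K, nclock_nil, pow_zero, Finset.prod_const_one]
      rw [hK1]
      simp
    | append_singleton u y ih =>
      have hc : π (t ((u.map fun a => Multiplicative.toAdd (π (φ a))).sum)) =
          Multiplicative.ofAdd ((u.map fun a => Multiplicative.toAdd (π (φ a))).sum) :=
        ht _ ⟨_, hclock u⟩
      have hκv : (κ' ((u.map fun a => Multiplicative.toAdd (π (φ a))).sum) y : G) =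
          t ((u.map fun a => Multiplicative.toAdd (π (φ a))).sum) * φ y *
            (t ((u.map fun a => Multiplicative.toAdd (π (φ a))).sum +
              Multiplicative.toAdd (π (φ y))))⁻¹ := by
        show κ _ y = _
        simp only [κ, if_pos hc]
      rw [List.map_append, List.prod_append, ← mul_assoc, ih, hK_snoc, Subgroup.coe_mul, hκv]
      simp [mul_assoc]
  have hKeq : K w = K w' := by
    simp only [K]
    refine Finset.prod_congr rfl fun y _ => Finset.prod_congr rfl fun c _ => ?_
    apply Subtype.ext
    rw [Subgroup.coe_pow, Subgroup.coe_pow]
    apply pow_eq_pow_iff_modEq.2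
    exact ((h y c).of_dvd (dvd_mul_left _ e)).of_dvd orderOf_dvd_card
  have h1 := hmain w
  have h2 := hmain w'
  rw [hKeq, hcl, ← h2] at h1
  exact mul_left_cancel h1

end Vale.Agent.H88
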