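import Mathlib

/-!
# Counting the solutions of a linear equation over `ZMod p` (board task SF-RADONCARD)

EXACT statement to prove (do not change it): `card_dot_zero`.

For a nonzero vector `v` of `(ZMod p)^n`, exactly `p^(n-1)` vectors `a` satisfy
`∑ i, a i * v i = 0`; stated as `p * card = p ^ n`. Proof idea: pick `i₀` with `v i₀ ≠ 0`; for
each `r : ZMod p` the map `a ↦ a + Pi.single i₀ (r / v i₀)` is a bijection from the solutions
of `∑ i, a i * v i = 0` onto the solutions of `∑ i, a i * v i = r`, so the `p` fibres of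
`a ↦ ∑ i, a i * v i` have equal size and partition a set of size `p ^ n`
(`Finset.card_eq_sum_card_fiberwise`, `Fintype.card_pi`, `ZMod.card`).
Alternatively: rank-nullity for the linear map `a ↦ ∑ i, a i * v i`.
-/

namespace Vale.Agent.H88

theorem radoncard_fiber {p : ℕ} [Fact p.Prime] {n : ℕ} (v : Fin n → ZMod p) (i₀ : Fin n)
    (h0 : v i₀ ≠ 0) (r : ZMod p) :
    (Finset.univ.filter (fun a : Fin n → ZMod p => ∑ i, a i * v i = r)).card =
      (Finset.univ.filter (fun a : Fin n → ZMod p => ∑ i, a i * v i = 0)).card := by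
  classical
  have key : ∀ (a : Fin n → ZMod p) (t : ZMod p),
      ∑ i, (a + Pi.single i₀ t : Fin n → ZMod p) i * v i = ∑ i, a i * v i + t * v i₀ := by
    intro a t
    have h1 : ∀ i, (a + Pi.single i₀ t : Fin n → ZMod p) i * v i =
        a i * v i + (Pi.single i₀ t : Fin n → ZMod p) i * v i := by
      intro i
      rw [Pi.add_apply, add_mul]
    rw [Finset.sum_congr rfl (fun i _ => h1 i), Finset.sum_add_distrib]
    congr 1
    rw [Finset.sum_eq_single i₀]
    · rw [Pi.single_eq_same]
    · intro b _ hb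
      rw [Pi.single_eq_of_ne hb, zero_mul]
    · intro h
      exact absurd (Finset.mem_univ i₀) h
  symm
  apply Finset.card_bij (fun a _ => a + Pi.single i₀ (r / v i₀))
  · intro a ha
    rw [Finset.mem_filter] at ha ⊢
    refine ⟨Finset.mem_univ _, ?_⟩
    rw [key, ha.2, zero_add, div_mul_cancel₀ r h0]
  · intro a _ b _ hab
    exact add_right_cancel hab
  · intro b hb
    rw [Finset.mem_filter] at hb
    refine ⟨b - Pi.single i₀ (r / v i₀), ?_, by rw [sub_add_cancel]⟩
    rw [Finset.mem_filter]
    refine ⟨Finset.mem_univ _, ?_⟩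
    have h2 := key (b - Pi.single i₀ (r / v i₀)) (r / v i₀)
    rw [sub_add_cancel, hb.2, div_mul_cancel₀ r h0] at h2
    have h3 : ∑ i, (b - Pi.single i₀ (r / v i₀) : Fin n → ZMod p) i * v i + r = 0 + r := by
      rw [zero_add]
      exact h2.symm
    exact add_right_cancel h3

theorem card_dot_zero {p : ℕ} [Fact p.Prime] {n : ℕ} (v : Fin n → ZMod p) (hv : v ≠ 0) :
    p * (Finset.univ.filter (fun a : Fin n → ZMod p => ∑ i, a i * v i = 0)).card = p ^ n := by
  classical
  obtain ⟨i₀, h0⟩ : ∃ i₀, v i₀ ≠ 0 := by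
    by_contra hcon
    apply hv
    funext i
    by_contra hi
    exact hcon ⟨i, hi⟩
  have hcard : (Finset.univ : Finset (Fin n → ZMod p)).card = p ^ n := by
    rw [Finset.card_univ, Fintype.card_pi]
    simp [ZMod.card]
  have hfib := Finset.card_eq_sum_card_fiberwise (s := (Finset.univ : Finset (Fin n → ZMod p)))
    (t := (Finset.univ : Finset (ZMod p))) (f := fun a => ∑ i, a i * v i)
    (fun a _ => Finset.mem_univ _)
  rw [hcard] at hfib
  rw [hfib]
  have h2 : ∀ r ∈ (Finset.univ : Finset (ZMod p)),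
      (Finset.univ.filter (fun a : Fin n → ZMod p => ∑ i, a i * v i = r)).card =
        (Finset.univ.filter (fun a : Fin n → ZMod p => ∑ i, a i * v i = 0)).card :=
    fun r _ => radoncard_fiber v i₀ h0 r
  rw [Finset.sum_congr rfl h2, Finset.sum_const, Finset.card_univ, ZMod.card, smul_eq_mul]

end Vale.Agent.H88
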