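import Vale.Agent.H88.SF.FinDet
import Vale.Agent.H88.SF.RadonCard

/-!
# Point counters from hyperplane counters over `(ZMod p)^(n+1)` (board task SF-RADON)

EXACT statement to prove (do not change it): `radon_nclock`.

With `χ_a c := ∑ i, a i * c i`, `nclock_comp` (file FinDet, proved by another seat) gives
`nclock (χ_a ∘ s) x (χ_a ρ) w = ∑ c, if χ_a c = χ_a ρ then nclock s x c w else 0`.
Summing over all `a` and exchanging the sums, the coefficient of `nclock s x c w` is the
number of `a` with `∑ i, a i * (c i - ρ i) = 0`, which is `p ^ (n+1)` for `c = ρ` and `p ^ n`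
otherwise (`card_dot_zero`, file RadonCard, proved by another seat). Finally
`∑ c, nclock s x c w = w.count x` (prove it by induction from the right with `nclock_snoc`; it
is also `nclock_sum_all` in file Core, which you should not import).
-/

namespace Vale.Agent.H88

universe u

variable {α : Type u}

/-- The dot product with a fixed vector, as an additive homomorphism. -/
def radonDot {p : ℕ} {m : ℕ} (a : Fin m → ZMod p) : (Fin m → ZMod p) →+ ZMod p where
  toFun c := ∑ i, a i * c i
  map_zero' := by simp
  map_add' c c' := by simp [mul_add, Finset.sum_add_distrib]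

theorem radonDot_apply {p : ℕ} {m : ℕ} (a c : Fin m → ZMod p) :
    radonDot a c = ∑ i, a i * c i := rfl

/-- Summing the point counters over all clock values gives the number of occurrences. -/
theorem radon_sum_all [DecidableEq α] {V : Type*} [AddMonoid V] [Fintype V] (s : α → V) (x : α)
    (w : List α) : ∑ c : V, nclock s x c w = w.count x := by
  classical
  induction w using List.reverseRecOn with
  | nil => simp [nclock_nil]
  | append_singleton w a ih =>
    simp only [nclock_snoc, Finset.sum_add_distrib, ih]
    rw [List.count_append]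
    congr 1
    by_cases h : a = x
    · subst h
      simp
    · simp [h]

/-- The number of vectors orthogonal to `c - ρ`. -/
theorem radon_card {p : ℕ} [Fact p.Prime] (n : ℕ) (c ρ : Fin (n + 1) → ZMod p) :
    (Finset.univ.filter (fun a : Fin (n + 1) → ZMod p =>
        ∑ i, a i * c i = ∑ i, a i * ρ i)).card
      = (if c = ρ then p ^ n * (p - 1) else 0) + p ^ n := by
  have hp : 1 ≤ p := (Fact.out : p.Prime).one_lt.le
  by_cases hc : c = ρ
  · subst hc
    simp only [Finset.filter_true, Finset.card_univ, if_true, Fintype.card_pi, ZMod.card,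
      Finset.prod_const, Fintype.card_fin]
    rw [pow_succ, ← Nat.mul_succ]
    congr 1
    omega
  · rw [if_neg hc, zero_add]
    have h := card_dot_zero (v := c - ρ) (sub_ne_zero.2 hc)
    have hfil : (Finset.univ.filter (fun a : Fin (n + 1) → ZMod p =>
        ∑ i, a i * c i = ∑ i, a i * ρ i))
        = Finset.univ.filter (fun a : Fin (n + 1) → ZMod p => ∑ i, a i * (c - ρ) i = 0) := by
      apply Finset.filter_congr
      intro a _
      simp only [Pi.sub_apply, mul_sub, Finset.sum_sub_distrib, sub_eq_zero]
    rw [hfil]
    have hp0 : 0 < p := hp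
    apply Nat.eq_of_mul_eq_mul_left hp0
    rw [h, pow_succ, mul_comm]

theorem radon_nclock [DecidableEq α] {p : ℕ} [Fact p.Prime] (n : ℕ)
    (s : α → (Fin (n + 1) → ZMod p)) (x : α) (ρ : Fin (n + 1) → ZMod p) (w : List α) :
    p ^ n * (p - 1) * nclock s x ρ w + p ^ n * w.count x =
      ∑ a : Fin (n + 1) → ZMod p,
        nclock (fun y => ∑ i, a i * s y i) x (∑ i, a i * ρ i) w := by
  classical
  have h1 : ∀ a : Fin (n + 1) → ZMod p,
      nclock (fun y => ∑ i, a i * s y i) x (∑ i, a i * ρ i) w
        = ∑ c : Fin (n + 1) → ZMod p,
            if ∑ i, a i * c i = ∑ i, a i * ρ i then nclock s x c w else 0 := by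
    intro a
    exact nclock_comp (radonDot a) s x (∑ i, a i * ρ i) w
  have h2 : ∀ c : Fin (n + 1) → ZMod p,
      ∑ a : Fin (n + 1) → ZMod p,
          (if ∑ i, a i * c i = ∑ i, a i * ρ i then nclock s x c w else 0)
        = (if c = ρ then p ^ n * (p - 1) else 0) * nclock s x c w + p ^ n * nclock s x c w := by
    intro c
    rw [← Finset.sum_filter, Finset.sum_const, smul_eq_mul, radon_card, add_mul]
  rw [Finset.sum_congr rfl (fun a _ => h1 a), Finset.sum_comm,
    Finset.sum_congr rfl (fun c _ => h2 c), Finset.sum_add_distrib, ← Finset.mul_sum,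
    radon_sum_all]
  congr 1
  simp

end Vale.Agent.H88
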