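import Vale.Agent.H88.SF.Core
import Vale.Agent.H88.SF.GrpProd
import Vale.Agent.H88.SF.Radon

/-!
# Groups with an abelian normal subgroup and elementary abelian quotient

Every language recognized by a finite group `G` admitting a homomorphism to `(ZMod p)^n`
(`p` prime) with commutative kernel has generalized star height at most one.
-/

namespace Vale.Agent.H88

open Language

universe u

variable {α : Type u}

theorem hasGSH_modLang_mul_const {f : List α → ℕ} (k m : ℕ) (hm : 0 < m)
    (hf : ∀ r, HasGSH (modLang f m r) 1) (r : ℕ) :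
    HasGSH (modLang (fun w => k * f w) m r) 1 := by
  have h := hasGSH_sum_modEq (Finset.range k) (fun _ => f) m hm (fun _ _ c => hf c) r
  refine h.of_eq ?_
  ext w
  change (∑ _i ∈ Finset.range k, f w) ≡ r [MOD m] ↔ k * f w ≡ r [MOD m]
  rw [Finset.sum_const, Finset.card_range, smul_eq_mul]

/-- Counting the letters `x` read at a prescribed value of a vector-valued clock. -/
theorem hasGSH_nclock_vec [Fintype α] [DecidableEq α] {p : ℕ} [Fact p.Prime] (n : ℕ)
    (s : α → (Fin n → ZMod p)) (x : α) (ρ : Fin n → ZMod p) (m : ℕ) (hm : 0 < m) (c : ℕ) :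
    HasGSH (modLang (nclock s x ρ) m c) 1 := by
  have hp : p.Prime := Fact.out
  cases n with
  | zero =>
    have e : ∀ w, nclock s x ρ w = w.count x := by
      intro w
      have h := nclock_sum_all s x w
      rw [Fintype.sum_unique] at h
      rw [← h]
      congr 1
      exact Subsingleton.elim _ _
    refine (hasGSH_count x m hm c).of_eq ?_
    ext w
    change w.count x ≡ c [MOD m] ↔ nclock s x ρ w ≡ c [MOD m]
    rw [e w]
  | succ n =>
    have hk : 0 < p ^ n * (p - 1) :=
      Nat.mul_pos (pow_pos hp.pos n) (Nat.sub_pos_of_lt hp.one_lt)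
    have hkm : 0 < p ^ n * (p - 1) * m := Nat.mul_pos hk hm
    refine hasGSH_lincomb (f := nclock s x ρ) (g := fun w => p ^ n * w.count x)
      (h := fun w => ∑ a : Fin (n + 1) → ZMod p,
        nclock (fun y => ∑ i, a i * s y i) x (∑ i, a i * ρ i) w)
      (p ^ n * (p - 1)) m hk hm (radon_nclock n s x ρ) ?_ ?_ c
    · intro r
      exact hasGSH_modLang_mul_const _ _ hkm (fun r => hasGSH_count x _ hkm r) r
    · intro r
      exact hasGSH_sum_modEq Finset.univ _ _ hkm (fun a _ r => hasGSH_nclock _ x _ _ hkm r) r

/-- If all the counters `nclock` of the weights induced by `π ∘ φ` have level sets of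
generalized star height at most one, then so has every language recognized through `φ`. -/
theorem hasGSH_group_of_nclock [Fintype α] {G : Type*} [Group G] [Fintype G] {V : Type*}
    [AddCommGroup V] [Fintype V] (e : ℕ) (he : 0 < e) (hV : ∀ v : V, e • v = 0)
    (π : G →* Multiplicative V) (hab : ∀ a b : G, π a = 1 → π b = 1 → a * b = b * a)
    (φ : α → G)
    (hcount : ∀ (x : α) (c : V) (m : ℕ), 0 < m → ∀ r,
      HasGSH (modLang (nclock (fun a => Multiplicative.toAdd (π (φ a))) x c) m r) 1)
    (S : Set G) : HasGSH ({w | (w.map φ).prod ∈ S} : Language α) 1 := by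
  have hM : 0 < e * Fintype.card G := Nat.mul_pos he Fintype.card_pos
  refine hasGSH_of_determined (ι := α × V)
    (fun i => nclock (fun a => Multiplicative.toAdd (π (φ a))) i.1 i.2) (e * Fintype.card G) hM
    (fun i r => hcount i.1 i.2 _ hM r) _ ?_
  intro w w' h hw
  have hprod := prod_eq_of_nclock_modEq e hV π hab φ w w' (fun x c => h (x, c))
  change (w'.map φ).prod ∈ S
  rw [← hprod]
  exact hw

/-- **Groups with an abelian normal subgroup and elementary abelian quotient.** -/
theorem hasGSH_group_elemAb [Fintype α] {G : Type*} [Group G] [Fintype G] (p : ℕ)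
    [Fact p.Prime] (n : ℕ) (π : G →* Multiplicative (Fin n → ZMod p))
    (hab : ∀ a b : G, π a = 1 → π b = 1 → a * b = b * a) (φ : α → G) (S : Set G) :
    HasGSH ({w | (w.map φ).prod ∈ S} : Language α) 1 := by
  classical
  have hp : p.Prime := Fact.out
  refine hasGSH_group_of_nclock p hp.pos ?_ π hab φ
    (fun x c m hm r => hasGSH_nclock_vec n _ x c m hm r) S
  intro v
  ext i
  simp

end Vale.Agent.H88
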