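import Vale.Agent.H88.SF.Defs

/-!
# The thin clock automaton: definitions and elementary lemmas

Fix a weight function `s : α → ZMod p` (the clock advances by `s a` when the letter `a` is
read), a clock value `ρ` and a Boolean function `good` on pairs (optional first letter, last
letter). The *blocks* of a word are its factors between consecutive visits of the clock value
`ρ`. The thin clock automaton has the states `(c, o)` where `c` is the clock and, when `c ≠ ρ`,
`o` is the first letter of the current block (`none` before the first visit of `ρ`). When a
block ends (the clock arrives at `ρ` by reading the letter `a`), the automaton moves to the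
gate `(ρ, none)` unless the block is good, in which case it moves to `(ρ, some a)`.
-/

namespace Vale.Agent.H88

open Language

universe u

variable {α : Type u} {p : ℕ}

/-- The transition function of the thin clock automaton. -/
def thinStep (s : α → ZMod p) (ρ : ZMod p) (good : Option α → α → Bool) :
    ZMod p × Option α → α → ZMod p × Option α :=
  fun st a =>
    if st.1 + s a = ρ then
      (if good (if st.1 = ρ then some a else st.2) a then (ρ, some a) else (ρ, none))
    else (st.1 + s a, if st.1 = ρ then some a else st.2)

open Classical in
/-- The number of positions `i` of `w` carrying the letter `x` such that the weights `s` of the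
letters before position `i` sum to `ρ`. -/
noncomputable def nclock {V : Type*} [AddMonoid V] (s : α → V) (x : α) (ρ : V) (w : List α) : ℕ :=
  ∑ i ∈ Finset.range w.length, if w[i]? = some x ∧ ((w.take i).map s).sum = ρ then 1 else 0

section basic

variable (s : α → ZMod p) (ρ : ZMod p) (good : Option α → α → Bool)

theorem thinStep_fst (st : ZMod p × Option α) (a : α) :
    (thinStep s ρ good st a).1 = st.1 + s a := by
  unfold thinStep
  split_ifs with h1 h2 <;> simp [h1]

theorem thinStep_of_ne {st : ZMod p × Option α} {a : α} (h1 : st.1 ≠ ρ) (h2 : st.1 + s a ≠ ρ) :
    thinStep s ρ good st a = (st.1 + s a, st.2) := by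
  unfold thinStep
  simp [h1, h2]

theorem thinStep_leave {st : ZMod p × Option α} {a : α} (h1 : st.1 = ρ) (h2 : st.1 + s a ≠ ρ) :
    thinStep s ρ good st a = (st.1 + s a, some a) := by
  unfold thinStep
  rw [if_neg h2, if_pos h1]

theorem thinStep_arrive {st : ZMod p × Option α} {a : α} (h : st.1 + s a = ρ) :
    thinStep s ρ good st a =
      if good (if st.1 = ρ then some a else st.2) a then (ρ, some a) else (ρ, none) := by
  unfold thinStep
  simp [h]

theorem thinStep_arrive_of_ne {st : ZMod p × Option α} {a : α} (h : st.1 + s a = ρ)
    (hG : thinStep s ρ good st a ≠ (ρ, none)) :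
    thinStep s ρ good st a = (ρ, some a) ∧
      good (if st.1 = ρ then some a else st.2) a = true := by
  rw [thinStep_arrive s ρ good h] at hG ⊢
  by_cases hg : good (if st.1 = ρ then some a else st.2) a = true
  · simp [hg]
  · simp [hg] at hG

theorem thin_foldl_fst (w : List α) (st : ZMod p × Option α) :
    (w.foldl (thinStep s ρ good) st).1 = st.1 + (w.map s).sum := by
  induction w generalizing st with
  | nil => simp
  | cons a w ih =>
    rw [List.foldl_cons, ih, thinStep_fst, List.map_cons, List.sum_cons, add_assoc]

end basic

section nclock

variable {V : Type*} [AddMonoid V]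

theorem nclock_nil (s : α → V) (x : α) (ρ : V) : nclock s x ρ ([] : List α) = 0 := by
  simp [nclock]

open Classical in
theorem nclock_snoc (s : α → V) (x : α) (ρ : V) (w : List α) (a : α) :
    nclock s x ρ (w ++ [a]) = nclock s x ρ w + if a = x ∧ (w.map s).sum = ρ then 1 else 0 := by
  unfold nclock
  rw [List.length_append, List.length_singleton, Finset.sum_range_succ]
  congr 1
  · apply Finset.sum_congr rfl
    intro i hi
    have hi' : i < w.length := Finset.mem_range.1 hi
    rw [List.getElem?_append_left hi', List.take_append_of_le_length hi'.le]
  · simp

end nclock

end Vale.Agent.H88
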