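import Vale.Agent.H88.SF.Defs

/-!
# First-return words and the visit counter (board task SF-COREB)

EXACT statements to prove (do not change them): `coreB_eq_returnCode`, `visits_nil`,
`visits_snoc`.

* `coreB Q Q'` (file CounterProduct) is the set of nonempty words of `Q ⊓ Q'` that are not a
  product of two nonempty words of `Q ⊓ Q'`. For `Q = pathLang δ G G` (loops at `G`) and
  `Q' = ⊤` these are the first-return words: nonempty `w` with `w.foldl δ G = G` such that no
  nonempty proper initial segment of `w` leads from `G` to `G`.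
* `returnCode δ G` (file ReturnCode) is
  `(⨆ a, ⨆ (_ : δ G a = G), {[a]}) + ⨆ a, ⨆ p', ⨆ b, ⨆ (_ : δ G a ≠ G ∧ p' ≠ G ∧ δ p' b = G),
     {[a]} * pathLang (sinkStep δ G) (δ G a) p' * {[b]}`.
  Useful lemmas there: `foldl_eq_of_sinkStep_ne`, `sinkStep_foldl_sink`, `sinkStep_of_ne`,
  `pathLang_return_eq`, `pathLang_eq_kstar`, `nil_notMem_returnCode`. A run of the sink
  automaton from `s ≠ G` ends in `p' ≠ G` iff the run of `δ` ends in `p'` and never visits `G`.
* `visits δ s₀ G w = splitCount (pathLang δ s₀ G) ⊤ w` (file Defs) is a sum over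
  `i ∈ Finset.range (w.length + 1)` of the indicator of `(w.take i).foldl δ s₀ = G`.
-/

namespace Vale.Agent.H88

open Language

universe u v

variable {α : Type u} {σ : Type v}

theorem coreb_avoid [DecidableEq σ] (δ : σ → α → σ) (G : σ) (u₁ u₂ : List α) (s p' : σ)
    (h : (u₁ ++ u₂).foldl (sinkStep δ G) s = p') (hp : p' ≠ G) : u₁.foldl δ s ≠ G := by
  have h1 : u₁.foldl (sinkStep δ G) s ≠ G := by
    intro h2
    rw [List.foldl_append, h2, sinkStep_foldl_sink] at h
    exact hp h.symm
  rw [← foldl_eq_of_sinkStep_ne δ G u₁ s h1]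
  exact h1

theorem coreb_returnCode_loop [DecidableEq σ] (δ : σ → α → σ) (G : σ) {r : List α}
    (hr : r ∈ returnCode δ G) : r.foldl δ G = G := by
  have h0 : ([] : List α) ∈ pathLang δ G G := mem_pathLang.2 rfl
  have h : r ++ [] ∈ returnCode δ G * pathLang δ G G :=
    Language.mem_mul.mpr ⟨r, hr, [], h0, rfl⟩
  have h2 : r ++ [] ∈ returnCode δ G * pathLang δ G G + departLang δ G G :=
    (Language.mem_add _ _ _).mpr (Or.inl h)
  rw [← pathLang_return_eq δ G G, List.append_nil] at h2
  exact mem_pathLang.1 h2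

theorem coreb_returnCode_irred [DecidableEq σ] (δ : σ → α → σ) (G : σ) {r : List α}
    (hr : r ∈ returnCode δ G) (x y : List α) (hxy : x ++ y = r) (hx : x ≠ []) (hy : y ≠ [])
    (hxl : x.foldl δ G = G) : False := by
  have hxpos : 0 < x.length := List.length_pos_iff.mpr hx
  have hypos : 0 < y.length := List.length_pos_iff.mpr hy
  rw [returnCode, Language.mem_add] at hr
  rcases hr with hr | hr
  · rw [Language.mem_iSup] at hr
    obtain ⟨a, hr⟩ := hr
    rw [Language.mem_iSup] at hr
    obtain ⟨-, hr⟩ := hr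
    have e : r = [a] := hr
    subst e
    have hl := congrArg List.length hxy
    rw [List.length_append, List.length_singleton] at hl
    omega
  · rw [Language.mem_iSup] at hr
    obtain ⟨a, hr⟩ := hr
    rw [Language.mem_iSup] at hr
    obtain ⟨p', hr⟩ := hr
    rw [Language.mem_iSup] at hr
    obtain ⟨b, hr⟩ := hr
    rw [Language.mem_iSup] at hr
    obtain ⟨⟨-, hp', -⟩, hr⟩ := hr
    rw [Language.mem_mul] at hr
    obtain ⟨z, hz, c', hc', rfl⟩ := hr
    rw [Language.mem_mul] at hz
    obtain ⟨a', ha', u, hu, rfl⟩ := hz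
    have e1 : a' = [a] := ha'
    have e2 : c' = [b] := hc'
    subst e1 e2
    rw [mem_pathLang] at hu
    cases x with
    | nil => exact hx rfl
    | cons a₁ x' =>
      have hxy' : a₁ :: (x' ++ y) = a :: (u ++ [b]) := by
        simpa using hxy
      obtain ⟨e3, hxy2⟩ := List.cons.inj hxy'
      subst e3
      have hpre : ∃ u₂, u = x' ++ u₂ := by
        rcases List.append_eq_append_iff.mp hxy2 with ⟨d, h1, -⟩ | ⟨d, h1, h2⟩
        · exact ⟨d, h1⟩
        · have hl := congrArg List.length h2
          rw [List.length_append, List.length_singleton] at hl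
          have hd : d = [] := List.eq_nil_of_length_eq_zero (by omega)
          subst hd
          rw [List.append_nil] at h1
          exact ⟨[], by rw [List.append_nil, h1]⟩
      obtain ⟨u₂, rfl⟩ := hpre
      have hne := coreb_avoid δ G x' u₂ (δ G a₁) p' hu hp'
      apply hne
      rw [List.foldl_cons] at hxl
      exact hxl

theorem coreB_eq_returnCode [DecidableEq σ] (δ : σ → α → σ) (G : σ) :
    coreB (pathLang δ G G) (⊤ : Language α) = returnCode δ G := by
  ext w
  rw [mem_coreB]
  constructor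
  · rintro ⟨hD, hn⟩
    obtain ⟨⟨hw, -⟩, hne⟩ := mem_coreD.1 hD
    have hw2 : w ∈ returnCode δ G * pathLang δ G G + departLang δ G G := by
      rw [← pathLang_return_eq δ G G]
      exact hw
    rw [Language.mem_add] at hw2
    rcases hw2 with hw2 | hw2
    · rw [Language.mem_mul] at hw2
      obtain ⟨r, hr, v, hv, rfl⟩ := hw2
      by_cases hv0 : v = []
      · subst hv0
        rw [List.append_nil]
        exact hr
      · exfalso
        apply hn
        rw [Language.mem_mul]
        have hr0 : r ≠ [] := by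
          intro h0
          subst h0
          exact nil_notMem_returnCode δ G hr
        exact ⟨r, mem_coreD.2 ⟨⟨mem_pathLang.2 (coreb_returnCode_loop δ G hr), trivial⟩, hr0⟩,
          v, mem_coreD.2 ⟨⟨hv, trivial⟩, hv0⟩, rfl⟩
    · exfalso
      rw [departLang, Language.mem_add] at hw2
      rcases hw2 with hw2 | hw2
      · rw [Language.mem_iSup] at hw2
        obtain ⟨-, hw2⟩ := hw2
        exact hne ((Language.mem_one w).mp hw2)
      · rw [Language.mem_iSup] at hw2
        obtain ⟨a, hw2⟩ := hw2
        rw [Language.mem_iSup] at hw2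
        obtain ⟨⟨-, hGG⟩, -⟩ := hw2
        exact hGG rfl
  · intro hr
    have hr0 : w ≠ [] := by
      intro h0
      subst h0
      exact nil_notMem_returnCode δ G hr
    refine ⟨mem_coreD.2 ⟨⟨mem_pathLang.2 (coreb_returnCode_loop δ G hr), trivial⟩, hr0⟩, ?_⟩
    intro h
    rw [Language.mem_mul] at h
    obtain ⟨x, hx, y, hy, hxy⟩ := h
    obtain ⟨⟨hxl, -⟩, hx0⟩ := mem_coreD.1 hx
    obtain ⟨-, hy0⟩ := mem_coreD.1 hy
    exact coreb_returnCode_irred δ G hr x y hxy hx0 hy0 (mem_pathLang.1 hxl)

theorem coreb_mem_top (x : List α) : x ∈ (⊤ : Language α) := trivial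

open Classical in
theorem visits_nil (δ : σ → α → σ) (s₀ G : σ) :
    visits δ s₀ G ([] : List α) = if s₀ = G then 1 else 0 := by
  unfold visits splitCount
  rw [List.length_nil, Nat.zero_add, Finset.sum_range_one]
  by_cases h : s₀ = G
  · have hc : (([] : List α).take 0 ∈ pathLang δ s₀ G ∧ ([] : List α).drop 0 ∈ (⊤ : Language α)) :=
      ⟨mem_pathLang.2 h, coreb_mem_top _⟩
    rw [if_pos h, if_pos hc]
  · have hc : ¬ (([] : List α).take 0 ∈ pathLang δ s₀ G ∧ ([] : List α).drop 0 ∈ (⊤ : Language α)) :=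
      fun hh => h (mem_pathLang.1 hh.1)
    rw [if_neg h, if_neg hc]

open Classical in
theorem visits_snoc (δ : σ → α → σ) (s₀ G : σ) (w : List α) (a : α) :
    visits δ s₀ G (w ++ [a]) =
      visits δ s₀ G w + if (w ++ [a]).foldl δ s₀ = G then 1 else 0 := by
  unfold visits splitCount
  have hlen : (w ++ [a]).length + 1 = (w.length + 1) + 1 := by
    rw [List.length_append, List.length_singleton]
  rw [hlen, Finset.sum_range_succ]
  congr 1
  · apply Finset.sum_congr rfl
    intro i hi
    have hi' : i ≤ w.length := Nat.lt_succ_iff.mp (Finset.mem_range.1 hi)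
    rw [List.take_append_of_le_length hi']
    by_cases h : w.take i ∈ pathLang δ s₀ G
    · have hc1 : (w.take i ∈ pathLang δ s₀ G ∧ (w ++ [a]).drop i ∈ (⊤ : Language α)) :=
        ⟨h, coreb_mem_top _⟩
      have hc2 : (w.take i ∈ pathLang δ s₀ G ∧ w.drop i ∈ (⊤ : Language α)) :=
        ⟨h, coreb_mem_top _⟩
      rw [if_pos hc1, if_pos hc2]
    · have hc1 : ¬ (w.take i ∈ pathLang δ s₀ G ∧ (w ++ [a]).drop i ∈ (⊤ : Language α)) :=
        fun hh => h hh.1
      have hc2 : ¬ (w.take i ∈ pathLang δ s₀ G ∧ w.drop i ∈ (⊤ : Language α)) :=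
        fun hh => h hh.1
      rw [if_neg hc1, if_neg hc2]
  · have h1 : (w ++ [a]).take (w.length + 1) = w ++ [a] := by
      apply List.take_of_length_le
      rw [List.length_append, List.length_singleton]
    rw [h1]
    by_cases h : (w ++ [a]).foldl δ s₀ = G
    · have hc : (w ++ [a] ∈ pathLang δ s₀ G ∧
          (w ++ [a]).drop (w.length + 1) ∈ (⊤ : Language α)) :=
        ⟨mem_pathLang.2 h, coreb_mem_top _⟩
      rw [if_pos h, if_pos hc]
    · have hc : ¬ (w ++ [a] ∈ pathLang δ s₀ G ∧
          (w ++ [a]).drop (w.length + 1) ∈ (⊤ : Language α)) :=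
        fun hh => h (mem_pathLang.1 hh.1)
      rw [if_neg h, if_neg hc]

end Vale.Agent.H88
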