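import Vale.Agent.H88.CounterProduct
import Vale.Agent.H88.ReturnCode

/-!
# Counter-free transition functions: shared definitions

Definitions used by the files of `Vale/Agent/H88/SF/`:
counter-free transition functions, the substitution languages of the classical proof that
counter-free automata accept star-free languages, and the number of visits of a state.
-/

namespace Vale.Agent.H88

open Language

universe u v

section defs

variable {α : Type u} {σ : Type v}

/-- A transition function is counter-free if no word induces a nontrivial cycle on the states:
whenever the `n`-th iterate (`n ≥ 1`) of the action of a word `t` fixes a state `q`, the action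
of `t` itself fixes `q`. -/
def CounterFree (δ : σ → α → σ) : Prop :=
  ∀ (t : List α) (q : σ) (n : ℕ), 0 < n → (fun s => t.foldl δ s)^[n] q = q → t.foldl δ q = q

/-- For a list `τ = [f₁, ..., fₖ]` the language `F f₁ · c · F f₂ · c ⋯ F fₖ · c`. -/
def subLang {T : Type v} (F : T → Language α) (c : α) : List T → Language α
  | [] => 1
  | f :: τ => F f * ({[c]} : Language α) * subLang F c τ

/-- The union of the languages `subLang F c τ` over all `τ ∈ K`. -/
def substLang {T : Type v} (F : T → Language α) (c : α) (K : Language T) : Language α :=
  {w | ∃ τ ∈ K, w ∈ subLang F c τ}

/-- The number of visits of the state `G` along the run of `δ` on `w` started in `s₀`: the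
number of `i ≤ |w|` such that the first `i` letters of `w` lead from `s₀` to `G`. -/
noncomputable def visits (δ : σ → α → σ) (s₀ G : σ) (w : List α) : ℕ :=
  splitCount (pathLang δ s₀ G) ⊤ w

end defs

end Vale.Agent.H88
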