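import Vale.Agent.H88.SF.Defs

/-!
# A criterion for counter-freeness of a sink automaton (board task SF-SEQ)

EXACT statement to prove (do not change it): `counterFree_sinkStep_of_seq`.

`sinkStep δ G` (file ReturnCode) is `δ` with the state `G` turned into a sink. The lemma says:
to prove that `sinkStep δ G` is counter-free it suffices to show, for every infinite run
`S 0, S 1, ...` of `δ` (not of the sink automaton) that reads a word `W` of period `L > 0`,
never visits `G` and is periodic with period `N * L` (`N > 0`), that `S L = S 0`.

Proof sketch. Unfold `CounterFree`; let `t`, `q`, `n` with `0 < n` and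
`(fun s => t.foldl (sinkStep δ G) s)^[n] q = q`. If `t = []` the claim is trivial; if `q = G` use
`sinkStep_foldl_sink`. Otherwise let `L := t.length`, `W i := t[i % L]`, and let
`S i := (t.take (i % L)).foldl (sinkStep δ G) (iter^[i / L] q)` be the run of the sink automaton
on the periodic word.  It satisfies the recursion of `sinkStep δ G`, has period `n * L`, and
never visits `G`: once in `G` it stays in `G` forever, but `S (j * n * L) = q ≠ G` for all `j`.
Hence it is a run of `δ` (`sinkStep_of_ne`), the hypothesis applies with `N := n`, and
`t.foldl (sinkStep δ G) q = S L = S 0 = q`.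
-/

namespace Vale.Agent.H88

universe u v

variable {α : Type u} {σ : Type v} [DecidableEq σ]

/-- Iterates of a map fix a point fixed by the `n`-th iterate, at all multiples of `n`. -/
theorem seq_iterate_mul {β : Type v} (F : β → β) (q : β) (n : ℕ) (hq : F^[n] q = q) (m : ℕ) :
    F^[m * n] q = q := by
  induction m with
  | zero => simp
  | succ m ih =>
    rw [Nat.succ_mul, Function.iterate_add_apply, hq, ih]

omit [DecidableEq σ] in
/-- One step of the run `i ↦ (t.take (i % L)).foldl T (F^[i / L] q)` of a transition function
`T` on the periodic word with period `t`. -/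
theorem seq_run_succ (T : σ → α → σ) (t : List α) (hL : 0 < t.length) (q : σ) (i : ℕ) :
    (t.take ((i + 1) % t.length)).foldl T ((fun s => t.foldl T s)^[(i + 1) / t.length] q)
      = T ((t.take (i % t.length)).foldl T ((fun s => t.foldl T s)^[i / t.length] q))
          (t[i % t.length]'(Nat.mod_lt i hL)) := by
  have hlt : i % t.length < t.length := Nat.mod_lt i hL
  have e1 := Nat.div_add_mod i t.length
  by_cases hc : i % t.length + 1 < t.length
  · have hdm : (i + 1) / t.length = i / t.length ∧ (i + 1) % t.length = i % t.length + 1 := by
      rw [Nat.div_mod_unique hL]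
      exact ⟨by omega, hc⟩
    rw [hdm.1, hdm.2, List.take_succ_eq_append_getElem hlt, List.foldl_append]
    rfl
  · have hc' : i % t.length + 1 = t.length := by omega
    have hdm : (i + 1) / t.length = i / t.length + 1 ∧ (i + 1) % t.length = 0 := by
      rw [Nat.div_mod_unique hL]
      refine ⟨?_, hL⟩
      rw [Nat.mul_add, Nat.mul_one]
      omega
    rw [hdm.1, hdm.2, List.take_zero, List.foldl_nil, Function.iterate_succ_apply']
    have h3 : t.take (i % t.length + 1) = t := by
      rw [hc']
      exact List.take_length
    have h4 : ∀ x : σ, t.foldl T x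
        = T ((t.take (i % t.length)).foldl T x) (t[i % t.length]'hlt) := by
      intro x
      have h5 : t.foldl T x = (t.take (i % t.length + 1)).foldl T x :=
        (congrArg (fun l => l.foldl T x) h3).symm
      rw [h5, List.take_succ_eq_append_getElem hlt, List.foldl_append]
      rfl
    exact h4 _

theorem counterFree_sinkStep_of_seq (δ : σ → α → σ) (G : σ)
    (h : ∀ (L N : ℕ) (W : ℕ → α) (S : ℕ → σ), 0 < L → 0 < N → (∀ i, W (i + L) = W i) →
      (∀ i, S (i + 1) = δ (S i) (W i)) → (∀ i, S i ≠ G) → (∀ i, S (i + N * L) = S i) →
      S L = S 0) :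
    CounterFree (sinkStep δ G) := by
  intro t q n hn hit
  by_cases hq : q = G
  · rw [hq]
    exact sinkStep_foldl_sink δ G t
  rcases Nat.eq_zero_or_pos t.length with h0 | hL
  · have : t = [] := List.length_eq_zero_iff.mp h0
    rw [this]
    rfl
  -- the run of the sink automaton on the periodic word
  let F : σ → σ := fun s => t.foldl (sinkStep δ G) s
  let W : ℕ → α := fun i => t[i % t.length]'(Nat.mod_lt i hL)
  let S : ℕ → σ := fun i => (t.take (i % t.length)).foldl (sinkStep δ G) (F^[i / t.length] q)
  have hrec : ∀ i, S (i + 1) = sinkStep δ G (S i) (W i) := fun i =>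
    seq_run_succ (sinkStep δ G) t hL q i
  have hmul : ∀ m, S (m * t.length) = F^[m] q := by
    intro m
    show (t.take (m * t.length % t.length)).foldl (sinkStep δ G) (F^[m * t.length / t.length] q) = _
    rw [Nat.mul_mod_left, Nat.mul_div_cancel _ hL, List.take_zero, List.foldl_nil]
  have hstay : ∀ i, S i = G → ∀ j, S (i + j) = G := by
    intro i hi j
    induction j with
    | zero => exact hi
    | succ j ih =>
      rw [← Nat.add_assoc, hrec, ih]
      simp [sinkStep]
  have hne : ∀ i, S i ≠ G := by
    intro i hi
    have h1 : i ≤ (i + 1) * n * t.length := by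
      have : 1 ≤ n * t.length := Nat.mul_pos hn hL
      calc i ≤ (i + 1) * 1 := by omega
        _ ≤ (i + 1) * (n * t.length) := Nat.mul_le_mul_left _ this
        _ = (i + 1) * n * t.length := by rw [Nat.mul_assoc]
    have h2 := hstay i hi ((i + 1) * n * t.length - i)
    rw [Nat.add_sub_cancel' h1, hmul, seq_iterate_mul F q n hit (i + 1)] at h2
    exact hq h2
  have hW : ∀ i, W (i + t.length) = W i := by
    intro i
    show t[(i + t.length) % t.length]'(Nat.mod_lt _ hL) = t[i % t.length]'(Nat.mod_lt _ hL)
    congr 1
    exact Nat.add_mod_right i t.length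
  have hδ : ∀ i, S (i + 1) = δ (S i) (W i) := by
    intro i
    rw [hrec, sinkStep_of_ne δ G (hne i)]
  have hper : ∀ i, S (i + n * t.length) = S i := by
    intro i
    show (t.take ((i + n * t.length) % t.length)).foldl (sinkStep δ G)
        (F^[(i + n * t.length) / t.length] q) = _
    rw [Nat.add_mul_mod_self_right, Nat.add_mul_div_right _ _ hL, Function.iterate_add_apply, hit]
  have key := h t.length n W S hL hn hW hδ hne hper
  have hSL : S t.length = t.foldl (sinkStep δ G) q := by
    have := hmul 1
    rw [Nat.one_mul] at this
    rw [this]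
    rfl
  have hS0 : S 0 = q := by
    have := hmul 0
    rw [Nat.zero_mul] at this
    rw [this]
    rfl
  rw [← hSL, key, hS0]

end Vale.Agent.H88
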