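import Vale.Agent.H88.SF.Schutz
import Vale.Agent.H88.SF.CoreB
import Vale.Agent.H88.SF.SinkSeq

/-!
# Gate theorems

Let `δ` be the transition function of a finite deterministic automaton and `G` a state such
that turning `G` into a sink leaves a counter-free automaton. Then

* every path language of `δ` has generalized star height at most one (`hasGSH_pathLang_of_gate`);
* for every modulus `m ≥ 1`, the words along which `G` is visited `c` times modulo `m` form a
  language of generalized star height at most one (`hasGSH_visits`).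
-/

namespace Vale.Agent.H88

open Language

universe u

variable {α σ : Type u} [Fintype α] [Fintype σ] [DecidableEq σ]

theorem hasGSH_sink_of_counterFree (δ : σ → α → σ) (G : σ) (h : CounterFree (sinkStep δ G))
    (n : ℕ) (p t : σ) : HasGSH (pathLang (sinkStep δ G) p t) n :=
  (hasGSH_pathLang_of_counterFree (sinkStep δ G) h p t).mono (Nat.zero_le n)

theorem hasGSH_returnCode_of_gate (δ : σ → α → σ) (G : σ) (h : CounterFree (sinkStep δ G)) :
    HasGSH (returnCode δ G) 0 := by
  refine HasGSH.add ?_ ?_
  · exact HasGSH.iSup_prop _ _ fun a _ => HasGSH.char a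
  · refine HasGSH.iSup _ fun a => HasGSH.iSup _ fun p' => HasGSH.iSup_prop _ _ fun b _ => ?_
    exact ((HasGSH.char a).mul (hasGSH_sink_of_counterFree δ G h 0 _ _)).mul (HasGSH.char b)

/-- If turning the state `G` into a sink leaves a counter-free automaton, then all path
languages have generalized star height at most one. -/
theorem hasGSH_pathLang_of_gate (δ : σ → α → σ) (G : σ) (h : CounterFree (sinkStep δ G)) :
    ∀ s t, HasGSH (pathLang δ s t) 1 := by
  have hK := hasGSH_sink_of_counterFree δ G h
  have hY := hasGSH_returnCode_of_gate δ G h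
  have hD : ∀ t, HasGSH (departLang δ G t) 1 := by
    intro t
    refine HasGSH.add ?_ ?_
    · by_cases htq : t = G
      · simp only [htq, iSup_pos]
        exact HasGSH.one
      · simp only [htq, iSup_neg, not_false_eq_true]
        exact HasGSH.zero
    · exact HasGSH.iSup_prop _ _ fun a _ => (HasGSH.char a).mul (hK 1 _ _)
  have hq : ∀ t, HasGSH (pathLang δ G t) 1 := by
    intro t
    rw [pathLang_eq_kstar]
    exact hY.kstar.mul (hD t)
  intro s t
  by_cases hs : s = G
  · rw [hs]
    exact hq t
  · rw [pathLang_first_hit δ G t s hs]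
    refine HasGSH.add ?_ ?_
    · by_cases htq : t = G
      · simp only [htq, ne_eq, not_true_eq_false, iSup_neg, not_false_eq_true]
        exact HasGSH.zero
      · simp only [ne_eq, htq, not_false_eq_true, iSup_pos]
        exact hK 1 _ _
    · refine HasGSH.iSup _ fun p' => HasGSH.iSup_prop _ _ fun b _ => ?_
      exact ((hK 1 _ _).mul (HasGSH.char b)).mul (hq t)

/-- If turning the state `G` into a sink leaves a counter-free automaton, then counting the
visits of `G` modulo `m` gives languages of generalized star height at most one. -/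
theorem hasGSH_visits (δ : σ → α → σ) (G : σ) (h : CounterFree (sinkStep δ G)) (s₀ : σ)
    (m : ℕ) (hm : 0 < m) (c : ℕ) : HasGSH (modLang (visits δ s₀ G) m c) 1 := by
  have hQ : ∀ u ∈ pathLang δ s₀ G, ∀ x, u ++ x ∈ pathLang δ s₀ G ↔ x ∈ pathLang δ G G := by
    intro u hu x
    rw [mem_pathLang] at hu
    rw [mem_pathLang, mem_pathLang, List.foldl_append, hu]
  have hQ' : ∀ v ∈ (⊤ : Language α), ∀ x, x ++ v ∈ (⊤ : Language α) ↔ x ∈ (⊤ : Language α) :=
    fun _ _ _ => ⟨fun _ => trivial, fun _ => trivial⟩
  have e : modLang (visits δ s₀ G) m c = modLang (splitCount (pathLang δ s₀ G) ⊤) m c := rfl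
  rw [e, splitCount_modEq_eq hQ hQ' m hm c]
  have hP := hasGSH_pathLang_of_gate δ G h s₀ G
  have hL := hasGSH_pathLang_of_gate δ G h G G
  have h1 : HasGSH ((1 : Language α)ᶜ) 1 := HasGSH.one.compl
  have hB : HasGSH (coreB (pathLang δ G G) (⊤ : Language α)) 0 := by
    rw [coreB_eq_returnCode]
    exact hasGSH_returnCode_of_gate δ G h
  have hX : HasGSH (coreX (pathLang δ s₀ G) (⊤ : Language α)) 1 :=
    hP.inf (hP.mul (HasGSH.top.inf h1)).compl
  have hY : HasGSH (coreY (⊤ : Language α) (pathLang δ G G)) 1 :=
    HasGSH.top.inf ((hL.inf h1).mul HasGSH.top).compl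
  apply HasGSH.add
  · by_cases hc : c % m = 0
    · rw [if_pos hc]
      exact (hP.mul HasGSH.top).compl
    · rw [if_neg hc]
      exact HasGSH.zero
  · exact hX.mul (((hasGSH_pow hB m).kstar).mul
      (((hasGSH_pow hB _).mono (Nat.zero_le 1)).mul hY))

end Vale.Agent.H88
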