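import Vale.Agent.H88.SF.Defs

/-!
# Relativization to a sub-alphabet (board task SF-REL)

EXACT statement to prove (do not change it): `hasGSH_map_subtype`.

If `L` is a star-free language over the sub-alphabet `{a // P a}` of `α`, then its image under
the inclusion (`Language.map Subtype.val L`, the same words read over `α`) is star-free over `α`.

Proof. Unfold `HasGSH L 0` to get `e : GRegex {a // P a}` with `e.lang = L` and
`e.height ≤ 0`; by induction on `e`,
`e.height = 0 → HasGSH (Language.map Subtype.val e.lang) 0`:
* `zero`, `one`: `map_zero`, `map_one` (`Language.map` is a ring hom).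
* `char b`: `Language.map Subtype.val {[b]} = {[b.1]}`.
* `plus`, `comp`: `map_add`, `map_mul`, heights are `max`.
* `compl`: `Language.map val (Kᶜ) = (Language.map val K)ᶜ ⊓ lettersLang {a | P a}` because
  `List.map Subtype.val` is injective and its range is exactly the words all of whose letters
  satisfy `P`; `hasGSH_lettersLang` (file ReturnCode) gives that `lettersLang B` is star-free.
* `star`: impossible, the height would be positive.
-/

namespace Vale.Agent.H88

open Language

universe u

variable {α : Type u}

/-- Membership in the image language of `Language.map`. -/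
theorem rel_mem_map {β : Type u} (f : α → β) (L : Language α) (w : List β) :
    w ∈ Language.map f L ↔ ∃ u ∈ L, u.map f = w := by
  change w ∈ List.map f '' L ↔ _
  exact Set.mem_image _ _ _

/-- The image of a one-letter language. -/
theorem rel_map_char {β : Type u} (f : α → β) (b : α) :
    Language.map f ({[b]} : Language α) = ({[f b]} : Language β) := by
  ext w
  rw [rel_mem_map]
  constructor
  · rintro ⟨u, hu, rfl⟩
    have hu' : u = [b] := hu
    rw [hu']
    exact rfl
  · intro hw
    have hw' : w = [f b] := hw
    exact ⟨[b], rfl, by rw [hw']; rfl⟩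

/-- Every word all of whose letters satisfy `P` is the image of a word over the subtype. -/
theorem rel_exists_lift (P : α → Prop) :
    ∀ w : List α, (∀ a ∈ w, P a) →
      ∃ u : List {a : α // P a}, u.map Subtype.val = w
  | [], _ => ⟨[], rfl⟩
  | a :: w, h => by
    obtain ⟨u, hu⟩ := rel_exists_lift P w (fun b hb => h b (List.mem_cons_of_mem a hb))
    exact ⟨⟨a, h a List.mem_cons_self⟩ :: u, by rw [List.map_cons, hu]⟩

/-- The image of a complement is the complement of the image, relativized to the words over
the sub-alphabet. -/
theorem rel_map_compl (P : α → Prop) (K : Language {a : α // P a}) :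
    Language.map (Subtype.val : {a : α // P a} → α) Kᶜ =
      (Language.map (Subtype.val : {a : α // P a} → α) K)ᶜ ⊓ lettersLang {a | P a} := by
  ext w
  rw [rel_mem_map, mem_inf_lang, mem_compl_lang, rel_mem_map]
  constructor
  · rintro ⟨u, hu, rfl⟩
    refine ⟨?_, ?_⟩
    · rintro ⟨u', hu', he⟩
      have : u' = u := List.map_injective_iff.2 Subtype.val_injective he
      exact hu (this ▸ hu')
    · intro a ha
      obtain ⟨b, _, rfl⟩ := List.mem_map.1 ha
      exact b.2
  · rintro ⟨h1, h2⟩
    obtain ⟨u, hu⟩ := rel_exists_lift P w h2
    refine ⟨u, ?_, hu⟩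
    intro huK
    exact h1 ⟨u, huK, hu⟩

/-- The induction behind `hasGSH_map_subtype`. -/
theorem rel_aux [Fintype α] (P : α → Prop) :
    ∀ e : GRegex {a : α // P a}, e.height = 0 →
      HasGSH (Language.map (Subtype.val : {a : α // P a} → α) e.lang) 0
  | .zero, _ => by
    change HasGSH (Language.map _ (0 : Language {a : α // P a})) 0
    rw [map_zero]
    exact HasGSH.zero
  | .one, _ => by
    change HasGSH (Language.map _ (1 : Language {a : α // P a})) 0
    rw [map_one]
    exact HasGSH.one
  | .char b, _ => by
    change HasGSH (Language.map _ ({[b]} : Language {a : α // P a})) 0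
    rw [rel_map_char]
    exact HasGSH.char _
  | .plus e f, h => by
    have h' : max e.height f.height = 0 := h
    have he : e.height = 0 := Nat.le_zero.1 (h' ▸ le_max_left _ _)
    have hf : f.height = 0 := Nat.le_zero.1 (h' ▸ le_max_right _ _)
    change HasGSH (Language.map _ (e.lang + f.lang)) 0
    rw [map_add]
    exact (rel_aux P e he).add (rel_aux P f hf)
  | .comp e f, h => by
    have h' : max e.height f.height = 0 := h
    have he : e.height = 0 := Nat.le_zero.1 (h' ▸ le_max_left _ _)
    have hf : f.height = 0 := Nat.le_zero.1 (h' ▸ le_max_right _ _)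
    change HasGSH (Language.map _ (e.lang * f.lang)) 0
    rw [map_mul]
    exact (rel_aux P e he).mul (rel_aux P f hf)
  | .compl e, h => by
    have he : e.height = 0 := h
    change HasGSH (Language.map _ (e.lang)ᶜ) 0
    rw [rel_map_compl]
    exact (rel_aux P e he).compl.inf (hasGSH_lettersLang _ 0)
  | .star e, h => by
    have h' : e.height + 1 = 0 := h
    exact absurd h' (Nat.succ_ne_zero _)

/-- The image of a star-free language over a sub-alphabet is star-free over the full alphabet. -/
theorem hasGSH_map_subtype [Fintype α] (P : α → Prop) (L : Language {a : α // P a})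
    (h : HasGSH L 0) : HasGSH (Language.map (Subtype.val : {a : α // P a} → α) L) 0 := by
  obtain ⟨e, rfl, he⟩ := h
  exact rel_aux P e (Nat.le_zero.1 he)

end Vale.Agent.H88
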