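import Vale.Agent.H88.SF.Defs

/-!
# The decomposition identity of the Schutzenberger induction (step 6 of board task SF-MAIN)

For a transition function `δ` and a letter `c`, every word is either `c`-free or of the form
`u ++ [c] ++ mid ++ v` with `u`, `v` free of `c` and `mid` a concatenation of blocks
`uᵢ ++ [c]` with `uᵢ` free of `c`. `dec_pathLang` turns this into the identity used in the
induction, stated abstractly: `σ'` is any type of states with a map `ι : σ' → σ`, `T` any type of
letters with an action `act : T → σ → σ` representing all `c`-free words, `F f` the language of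
the `c`-free words acting like `f`, and `δ'` a transition function on `σ'` with
`ι (δ' q f) = δ (act f (ι q)) c`.
-/

namespace Vale.Agent.H88

open Language

universe u v w x

section dec

variable {α : Type u} {σ : Type v}

/-- The `c`-free words leading from `q` to `q'`. -/
def cfreeLang (δ : σ → α → σ) (c : α) (q q' : σ) : Language α :=
  {w | c ∉ w ∧ w.foldl δ q = q'}

theorem mem_cfreeLang {δ : σ → α → σ} {c : α} {q q' : σ} {w : List α} :
    w ∈ cfreeLang δ c q q' ↔ c ∉ w ∧ w.foldl δ q = q' := Iff.rfl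

/-- The path languages of the automaton restricted to the letters other than `c`, read over the
full alphabet, are the languages `cfreeLang`. -/
theorem dec_map_val (δ : σ → α → σ) (c : α) (q q' : σ) :
    Language.map (Subtype.val : {a : α // a ≠ c} → α)
      (pathLang (fun p (b : {a : α // a ≠ c}) => δ p b.1) q q') = cfreeLang δ c q q' := by
  ext w
  constructor
  · intro h
    obtain ⟨u, hu, rfl⟩ := h
    refine ⟨?_, ?_⟩
    · intro hc
      obtain ⟨b, -, hb⟩ := List.mem_map.1 hc
      exact b.2 hb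
    · rw [List.foldl_map]; exact hu
  · rintro ⟨hc, hw⟩
    have H : ∀ a ∈ w, a ≠ c := fun a ha h => hc (h ▸ ha)
    have hmap : (w.pmap (fun a ha => (⟨a, ha⟩ : {a : α // a ≠ c})) H).map Subtype.val = w := by
      rw [List.map_pmap]; simp
    refine ⟨w.pmap (fun a ha => (⟨a, ha⟩ : {a : α // a ≠ c})) H, ?_, hmap⟩
    show (w.pmap (fun a ha => (⟨a, ha⟩ : {a : α // a ≠ c})) H).foldl
      (fun p (b : {a : α // a ≠ c}) => δ p b.1) q = q'
    rw [← List.foldl_map (f := Subtype.val) (g := δ), hmap]; exact hw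

/-- Splitting a word at the first occurrence of `c`. -/
theorem dec_split_first (c : α) : ∀ w : List α, c ∈ w →
    ∃ u rest : List α, w = u ++ c :: rest ∧ c ∉ u := by
  intro w
  induction w with
  | nil => intro h; simp at h
  | cons a w ih =>
    intro h
    by_cases hac : a = c
    · exact ⟨[], w, by simp [hac], by simp⟩
    · have hw : c ∈ w := by
        rcases List.mem_cons.1 h with h | h
        · exact absurd h.symm hac
        · exact h
      obtain ⟨u, rest, rfl, hu⟩ := ih hw
      refine ⟨a :: u, rest, by simp, ?_⟩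
      intro hc
      rcases List.mem_cons.1 hc with h | h
      · exact hac h.symm
      · exact hu h

variable {σ' : Type w} {T : Type x}

/-- Every word is a concatenation of blocks `uᵢ ++ [c]` (with `uᵢ` free of `c`) followed by a
`c`-free word. -/
theorem dec_exists_blocks (δ : σ → α → σ) (c : α) (act : T → σ → σ)
    (hT : ∀ w : List α, c ∉ w → ∃ f : T, ∀ q, w.foldl δ q = act f q)
    (F : T → Language α) (hF : ∀ f w, w ∈ F f ↔ c ∉ w ∧ ∀ q, w.foldl δ q = act f q) :
    ∀ (n : ℕ) (w : List α), w.length ≤ n →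
      ∃ (τ : List T) (mid v : List α), w = mid ++ v ∧ mid ∈ subLang F c τ ∧ c ∉ v := by
  intro n
  induction n with
  | zero =>
    intro w hw
    have : w = [] := List.length_eq_zero_iff.1 (Nat.le_zero.1 hw)
    subst this
    exact ⟨[], [], [], rfl, rfl, by simp⟩
  | succ n ih =>
    intro w hw
    by_cases hc : c ∈ w
    · obtain ⟨u, rest, rfl, hu⟩ := dec_split_first c w hc
      have hlen : rest.length ≤ n := by
        simp only [List.length_append, List.length_cons] at hw
        omega
      obtain ⟨τ, mid, v, rfl, hmid, hv⟩ := ih rest hlen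
      obtain ⟨f, hf⟩ := hT u hu
      refine ⟨f :: τ, u ++ [c] ++ mid, v, by simp, ?_, hv⟩
      show u ++ [c] ++ mid ∈ F f * ({[c]} : Language α) * subLang F c τ
      exact Language.mem_mul.2 ⟨u ++ [c], Language.mem_mul.2 ⟨u, (hF f u).2 ⟨hu, hf⟩, [c], rfl, rfl⟩,
        mid, hmid, rfl⟩
    · exact ⟨[], [], w, rfl, rfl, hc⟩

/-- Key fact: a word of `subLang F c τ` acts on the states `ι q₂` like `τ` acts through `δ'`. -/
theorem dec_foldl_subLang (δ : σ → α → σ) (c : α) (ι : σ' → σ) (act : T → σ → σ)
    (F : T → Language α) (hF : ∀ f w, w ∈ F f ↔ c ∉ w ∧ ∀ q, w.foldl δ q = act f q)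
    (δ' : σ' → T → σ') (hδ' : ∀ q f, ι (δ' q f) = δ (act f (ι q)) c) :
    ∀ (τ : List T) (mid : List α) (q₂ : σ'), mid ∈ subLang F c τ →
      mid.foldl δ (ι q₂) = ι (τ.foldl δ' q₂) := by
  intro τ
  induction τ with
  | nil =>
    intro mid q₂ h
    have : mid = [] := h
    subst this
    rfl
  | cons f τ ih =>
    intro mid q₂ h
    have h' : mid ∈ F f * ({[c]} : Language α) * subLang F c τ := h
    obtain ⟨ab, hab, m', hm', rfl⟩ := Language.mem_mul.1 h'
    obtain ⟨u0, hu0, s, hs, rfl⟩ := Language.mem_mul.1 hab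
    have hs' : s = [c] := hs
    subst hs'
    have hact := ((hF f u0).1 hu0).2 (ι q₂)
    rw [List.foldl_append, List.foldl_append, List.foldl_cons, List.foldl_nil, hact, ← hδ',
      ih m' (δ' q₂ f) hm', List.foldl_cons]

/-- **Decomposition identity** (cut a word at its first and at its last `c`). -/
theorem dec_pathLang (δ : σ → α → σ) (c : α) (ι : σ' → σ) (e : σ → σ')
    (he : ∀ q, ι (e q) = δ q c) (act : T → σ → σ)
    (hT : ∀ w : List α, c ∉ w → ∃ f : T, ∀ q, w.foldl δ q = act f q)
    (F : T → Language α) (hF : ∀ f w, w ∈ F f ↔ c ∉ w ∧ ∀ q, w.foldl δ q = act f q)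
    (δ' : σ' → T → σ') (hδ' : ∀ q f, ι (δ' q f) = δ (act f (ι q)) c) (q q' : σ) :
    pathLang δ q q' = cfreeLang δ c q q' + ⨆ q₁ : σ, ⨆ q₃ : σ',
      cfreeLang δ c q q₁ * ({[c]} : Language α) * substLang F c (pathLang δ' (e q₁) q₃) *
        cfreeLang δ c (ι q₃) q' := by
  ext w
  constructor
  · intro hw
    have hw' : w.foldl δ q = q' := hw
    by_cases hc : c ∈ w
    · refine (Language.mem_add _ _ _).2 (Or.inr ?_)
      obtain ⟨u, rest, rfl, hu⟩ := dec_split_first c w hc
      obtain ⟨τ, mid, v, rfl, hmid, hv⟩ :=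
        dec_exists_blocks δ c act hT F hF rest.length rest le_rfl
      refine mem_iSup_lang.2 ⟨u.foldl δ q, mem_iSup_lang.2 ⟨τ.foldl δ' (e (u.foldl δ q)), ?_⟩⟩
      have hkey := dec_foldl_subLang δ c ι act F hF δ' hδ' τ mid (e (u.foldl δ q)) hmid
      refine Language.mem_mul.2 ⟨u ++ [c] ++ mid, ?_, v, ⟨hv, ?_⟩, by simp⟩
      · refine Language.mem_mul.2 ⟨u ++ [c], ?_, mid, ⟨τ, rfl, hmid⟩, rfl⟩
        exact Language.mem_mul.2 ⟨u, ⟨hu, rfl⟩, [c], rfl, rfl⟩
      · rw [← hkey, he]
        rw [List.foldl_append, List.foldl_cons, List.foldl_append] at hw'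
        exact hw'
    · exact (Language.mem_add _ _ _).2 (Or.inl ⟨hc, hw'⟩)
  · intro hw
    rcases (Language.mem_add _ _ _).1 hw with h | h
    · exact h.2
    · obtain ⟨q₁, h⟩ := mem_iSup_lang.1 h
      obtain ⟨q₃, h⟩ := mem_iSup_lang.1 h
      obtain ⟨x1, hx1, v, hv, rfl⟩ := Language.mem_mul.1 h
      obtain ⟨x2, hx2, mid, hmid, rfl⟩ := Language.mem_mul.1 hx1
      obtain ⟨u, hu, s, hs, rfl⟩ := Language.mem_mul.1 hx2
      have hs' : s = [c] := hs
      subst hs'
      obtain ⟨τ, hτ, hmidτ⟩ := hmid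
      have hτ' : τ.foldl δ' (e q₁) = q₃ := hτ
      have hkey := dec_foldl_subLang δ c ι act F hF δ' hδ' τ mid (e q₁) hmidτ
      show (u ++ [c] ++ mid ++ v).foldl δ q = q'
      rw [List.foldl_append, List.foldl_append, List.foldl_append, List.foldl_cons,
        List.foldl_nil, hu.2, ← he, hkey, hτ']
      exact hv.2

end dec

end Vale.Agent.H88
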