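import Vale.Agent.H88.SF.Defs

/-!
# The substitution lemma (board task SF-SUBST)

EXACT statement to prove (do not change it): `hasGSH_substLang`.

Setting: `c : α` is a letter, `F : T → Language α` assigns to every `f : T` a star-free
language of `c`-free words, and the languages `F f` form a partition of the set of all `c`-free
words (`hpart`). `subLang F c [f₁, ..., fₖ] = F f₁ · c ⋯ F fₖ · c` and
`substLang F c K = ⋃_{τ ∈ K} subLang F c τ` (file Defs). Claim: `substLang F c K` is star-free
over `α` whenever `K` is star-free over `T`.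

Proof sketch. Take `e : GRegex T` with `e.lang = K`, `e.height = 0`, and prove by induction on `e`
that `HasGSH (substLang F c e.lang) 0`, using:
* `substLang F c 0 = 0`, `substLang F c 1 = 1`, `substLang F c {[f]} = F f * {[c]}`.
* `substLang F c (K₁ + K₂) = substLang F c K₁ + substLang F c K₂`.
* `subLang F c (τ₁ ++ τ₂) = subLang F c τ₁ * subLang F c τ₂` (induction on `τ₁`), hence
  `substLang F c (K₁ * K₂) = substLang F c K₁ * substLang F c K₂`.
* unique decoding: `w ∈ subLang F c τ → w ∈ subLang F c τ' → τ = τ'` (induction on `τ`; a word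
  of `subLang F c (f :: τ)` is `u ++ [c] ++ w₁` with `u ∈ F f` free of `c`, so `u` is the part
  of `w` before the first `c`; use `hc` and the uniqueness part of `hpart`; the words of
  `subLang F c []` are empty while those of `subLang F c (f :: τ)` contain `c`).
* decoding exists: `w = [] ∨ w` ends with `c` iff `∃ τ, w ∈ subLang F c τ` (strong induction on the
  length: cut `w` after its first `c`), so
  `substLang F c ⊤ = 1 + ⊤ * {[c]}`, which is star-free.
* complement: `substLang F c (Kᶜ) = substLang F c ⊤ ⊓ (substLang F c K)ᶜ` by unique decoding.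
* `star` is excluded by the height.
-/

namespace Vale.Agent.H88

open Language

universe u v

variable {α : Type u} {T : Type v}

theorem subst_mem_char {c : α} {x : List α} : x ∈ ({[c]} : Language α) ↔ x = [c] :=
  Set.mem_singleton_iff

theorem subst_mem_subLang_nil {F : T → Language α} {c : α} {w : List α} :
    w ∈ subLang F c [] ↔ w = [] := by
  change w ∈ (1 : Language α) ↔ w = []
  exact Language.mem_one w

theorem subst_mem_subLang_cons {F : T → Language α} {c : α} {f : T} {τ : List T} {w : List α} :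
    w ∈ subLang F c (f :: τ) ↔ ∃ u ∈ F f, ∃ w₁ ∈ subLang F c τ, w = u ++ c :: w₁ := by
  change w ∈ F f * ({[c]} : Language α) * subLang F c τ ↔ _
  constructor
  · intro h
    obtain ⟨x, hx, w₁, hw₁, rfl⟩ := Language.mem_mul.mp h
    obtain ⟨u, hu, y, hy, rfl⟩ := Language.mem_mul.mp hx
    rw [subst_mem_char] at hy
    subst hy
    exact ⟨u, hu, w₁, hw₁, by simp⟩
  · rintro ⟨u, hu, w₁, hw₁, rfl⟩
    refine Language.mem_mul.mpr ⟨u ++ [c], ?_, w₁, hw₁, by simp⟩
    exact Language.mem_mul.mpr ⟨u, hu, [c], subst_mem_char.mpr rfl, rfl⟩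

theorem subst_subLang_append (F : T → Language α) (c : α) (τ₁ τ₂ : List T) :
    subLang F c (τ₁ ++ τ₂) = subLang F c τ₁ * subLang F c τ₂ := by
  induction τ₁ with
  | nil =>
    change subLang F c τ₂ = (1 : Language α) * subLang F c τ₂
    rw [one_mul]
  | cons f τ ih =>
    change F f * ({[c]} : Language α) * subLang F c (τ ++ τ₂)
      = F f * ({[c]} : Language α) * subLang F c τ * subLang F c τ₂
    rw [ih, mul_assoc, mul_assoc, mul_assoc]

theorem subst_mem_substLang {F : T → Language α} {c : α} {K : Language T} {w : List α} :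
    w ∈ substLang F c K ↔ ∃ τ ∈ K, w ∈ subLang F c τ := Iff.rfl

theorem subst_zero (F : T → Language α) (c : α) : substLang F c 0 = 0 := by
  ext w
  rw [subst_mem_substLang]
  constructor
  · rintro ⟨τ, hτ, -⟩
    exact absurd hτ (Language.notMem_zero τ)
  · intro h
    exact absurd h (Language.notMem_zero w)

theorem subst_one (F : T → Language α) (c : α) : substLang F c 1 = 1 := by
  ext w
  rw [subst_mem_substLang, Language.mem_one]
  constructor
  · rintro ⟨τ, hτ, hw⟩
    rw [Language.mem_one] at hτ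
    subst hτ
    exact subst_mem_subLang_nil.mp hw
  · intro h
    exact ⟨[], (Language.mem_one _).mpr rfl, subst_mem_subLang_nil.mpr h⟩

theorem subst_char (F : T → Language α) (c : α) (f : T) :
    substLang F c ({[f]} : Language T) = F f * ({[c]} : Language α) := by
  ext w
  rw [subst_mem_substLang]
  constructor
  · rintro ⟨τ, hτ, hw⟩
    rw [subst_mem_char] at hτ
    subst hτ
    obtain ⟨u, hu, w₁, hw₁, rfl⟩ := subst_mem_subLang_cons.mp hw
    rw [subst_mem_subLang_nil] at hw₁
    subst hw₁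
    exact Language.mem_mul.mpr ⟨u, hu, [c], subst_mem_char.mpr rfl, rfl⟩
  · intro h
    obtain ⟨u, hu, y, hy, rfl⟩ := Language.mem_mul.mp h
    rw [subst_mem_char] at hy
    subst hy
    exact ⟨[f], subst_mem_char.mpr rfl,
      subst_mem_subLang_cons.mpr ⟨u, hu, [], subst_mem_subLang_nil.mpr rfl, rfl⟩⟩

theorem subst_add (F : T → Language α) (c : α) (K₁ K₂ : Language T) :
    substLang F c (K₁ + K₂) = substLang F c K₁ + substLang F c K₂ := by
  ext w
  rw [Language.mem_add, subst_mem_substLang, subst_mem_substLang, subst_mem_substLang]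
  constructor
  · rintro ⟨τ, hτ, hw⟩
    rcases (Language.mem_add _ _ _).mp hτ with h | h
    · exact Or.inl ⟨τ, h, hw⟩
    · exact Or.inr ⟨τ, h, hw⟩
  · rintro (⟨τ, hτ, hw⟩ | ⟨τ, hτ, hw⟩)
    · exact ⟨τ, (Language.mem_add _ _ _).mpr (Or.inl hτ), hw⟩
    · exact ⟨τ, (Language.mem_add _ _ _).mpr (Or.inr hτ), hw⟩

theorem subst_mul (F : T → Language α) (c : α) (K₁ K₂ : Language T) :
    substLang F c (K₁ * K₂) = substLang F c K₁ * substLang F c K₂ := by
  ext w
  rw [subst_mem_substLang, Language.mem_mul]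
  constructor
  · rintro ⟨τ, hτ, hw⟩
    obtain ⟨τ₁, h₁, τ₂, h₂, rfl⟩ := Language.mem_mul.mp hτ
    rw [subst_subLang_append] at hw
    obtain ⟨w₁, hw₁, w₂, hw₂, rfl⟩ := Language.mem_mul.mp hw
    exact ⟨w₁, ⟨τ₁, h₁, hw₁⟩, w₂, ⟨τ₂, h₂, hw₂⟩, rfl⟩
  · rintro ⟨w₁, ⟨τ₁, h₁, hw₁⟩, w₂, ⟨τ₂, h₂, hw₂⟩, rfl⟩
    refine ⟨τ₁ ++ τ₂, Language.mem_mul.mpr ⟨τ₁, h₁, τ₂, h₂, rfl⟩, ?_⟩
    rw [subst_subLang_append]
    exact Language.mem_mul.mpr ⟨w₁, hw₁, w₂, hw₂, rfl⟩

/-- Cutting a word at its first occurrence of `c` is unique. -/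
theorem subst_cut_unique {c : α} : ∀ (u u' x y : List α), c ∉ u → c ∉ u' →
    u ++ c :: x = u' ++ c :: y → u = u' ∧ x = y
  | [], [], x, y, _, _, h => by
    simp only [List.nil_append, List.cons.injEq, true_and] at h
    exact ⟨rfl, h⟩
  | [], b :: u', x, y, _, hu', h => by
    simp only [List.nil_append, List.cons_append, List.cons.injEq] at h
    exact absurd (h.1 ▸ List.mem_cons_self) hu'
  | a :: u, [], x, y, hu, _, h => by
    simp only [List.nil_append, List.cons_append, List.cons.injEq] at h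
    exact absurd (h.1 ▸ List.mem_cons_self) hu
  | a :: u, b :: u', x, y, hu, hu', h => by
    simp only [List.cons_append, List.cons.injEq] at h
    have hu2 : c ∉ u := fun hh => hu (List.mem_cons_of_mem _ hh)
    have hu2' : c ∉ u' := fun hh => hu' (List.mem_cons_of_mem _ hh)
    obtain ⟨e1, e2⟩ := subst_cut_unique u u' x y hu2 hu2' h.2
    exact ⟨by rw [h.1, e1], e2⟩

/-- Unique decoding. -/
theorem subst_unique (F : T → Language α) (c : α)
    (hc : ∀ f, ∀ u ∈ F f, c ∉ u) (hpart : ∀ u : List α, c ∉ u → ∃! f, u ∈ F f) :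
    ∀ (τ τ' : List T) (w : List α), w ∈ subLang F c τ → w ∈ subLang F c τ' → τ = τ'
  | [], [], _, _, _ => rfl
  | [], f' :: τ', w, h, h' => by
    rw [subst_mem_subLang_nil] at h
    obtain ⟨u, _, w₁, _, e⟩ := subst_mem_subLang_cons.mp h'
    rw [h] at e
    exact absurd e (by simp)
  | f :: τ, [], w, h, h' => by
    rw [subst_mem_subLang_nil] at h'
    obtain ⟨u, _, w₁, _, e⟩ := subst_mem_subLang_cons.mp h
    rw [h'] at e
    exact absurd e (by simp)
  | f :: τ, f' :: τ', w, h, h' => by
    obtain ⟨u, hu, w₁, hw₁, e⟩ := subst_mem_subLang_cons.mp h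
    obtain ⟨u', hu', w₁', hw₁', e'⟩ := subst_mem_subLang_cons.mp h'
    have hcu : c ∉ u := hc f u hu
    have hcu' : c ∉ u' := hc f' u' hu'
    obtain ⟨e1, e2⟩ := subst_cut_unique u u' w₁ w₁' hcu hcu' (e.symm.trans e')
    subst e1
    subst e2
    have hff : f = f' := (hpart u hcu).unique hu hu'
    have hττ : τ = τ' := subst_unique F c hc hpart τ τ' w₁ hw₁ hw₁'
    rw [hff, hττ]

/-- Words of `subLang` are empty or end with `c`. -/
theorem subst_ends (F : T → Language α) (c : α) :
    ∀ (τ : List T) (w : List α), w ∈ subLang F c τ → w = [] ∨ ∃ x, w = x ++ [c]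
  | [], w, h => Or.inl (subst_mem_subLang_nil.mp h)
  | f :: τ, w, h => by
    obtain ⟨u, _, w₁, hw₁, rfl⟩ := subst_mem_subLang_cons.mp h
    rcases subst_ends F c τ w₁ hw₁ with h1 | ⟨x, rfl⟩
    · subst h1
      exact Or.inr ⟨u, rfl⟩
    · exact Or.inr ⟨u ++ c :: x, by simp⟩

/-- Decoding exists for every word ending with `c`. -/
theorem subst_decode (F : T → Language α) (c : α)
    (hpart : ∀ u : List α, c ∉ u → ∃! f, u ∈ F f) :
    ∀ (x u : List α), c ∉ u → ∃ τ, u ++ x ++ [c] ∈ subLang F c τ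
  | [], u, hu => by
    obtain ⟨f, hf, -⟩ := hpart u hu
    exact ⟨[f], subst_mem_subLang_cons.mpr ⟨u, hf, [], subst_mem_subLang_nil.mpr rfl, by simp⟩⟩
  | a :: x, u, hu => by
    classical
    by_cases hac : a = c
    · rw [hac]
      obtain ⟨f, hf, -⟩ := hpart u hu
      obtain ⟨τ, hτ⟩ := subst_decode F c hpart x [] (by simp)
      exact ⟨f :: τ, subst_mem_subLang_cons.mpr ⟨u, hf, [] ++ x ++ [c], hτ, by simp⟩⟩
    · have hu' : c ∉ u ++ [a] := by
        intro hh
        rcases List.mem_append.mp hh with h1 | h1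
        · exact hu h1
        · exact hac (List.mem_singleton.mp h1).symm
      obtain ⟨τ, hτ⟩ := subst_decode F c hpart x (u ++ [a]) hu'
      exact ⟨τ, by simpa using hτ⟩

theorem subst_top (F : T → Language α) (c : α)
    (hpart : ∀ u : List α, c ∉ u → ∃! f, u ∈ F f) :
    substLang F c ⊤ = 1 + ⊤ * ({[c]} : Language α) := by
  ext w
  rw [subst_mem_substLang, Language.mem_add, Language.mem_one]
  constructor
  · rintro ⟨τ, -, hw⟩
    rcases subst_ends F c τ w hw with h | ⟨x, rfl⟩
    · exact Or.inl h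
    · exact Or.inr (Language.mem_mul.mpr ⟨x, trivial, [c], subst_mem_char.mpr rfl, rfl⟩)
  · rintro (h | h)
    · exact ⟨[], trivial, subst_mem_subLang_nil.mpr h⟩
    · obtain ⟨x, -, y, hy, rfl⟩ := Language.mem_mul.mp h
      rw [subst_mem_char] at hy
      subst hy
      obtain ⟨τ, hτ⟩ := subst_decode F c hpart x [] (by simp)
      exact ⟨τ, trivial, by simpa using hτ⟩

theorem subst_compl (F : T → Language α) (c : α)
    (hc : ∀ f, ∀ u ∈ F f, c ∉ u) (hpart : ∀ u : List α, c ∉ u → ∃! f, u ∈ F f)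
    (K : Language T) :
    substLang F c Kᶜ = substLang F c ⊤ ⊓ (substLang F c K)ᶜ := by
  ext w
  rw [mem_inf_lang, mem_compl_lang, subst_mem_substLang, subst_mem_substLang,
    subst_mem_substLang]
  constructor
  · rintro ⟨τ, hτ, hw⟩
    refine ⟨⟨τ, trivial, hw⟩, ?_⟩
    rintro ⟨τ', hτ', hw'⟩
    have e : τ = τ' := subst_unique F c hc hpart τ τ' w hw hw'
    exact hτ (e ▸ hτ')
  · rintro ⟨⟨τ, -, hw⟩, hn⟩
    exact ⟨τ, fun hτ => hn ⟨τ, hτ, hw⟩, hw⟩

/-- The substitution lemma: see the file header. -/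
theorem hasGSH_substLang (F : T → Language α) (c : α) (hF : ∀ f, HasGSH (F f) 0)
    (hc : ∀ f, ∀ u ∈ F f, c ∉ u) (hpart : ∀ u : List α, c ∉ u → ∃! f, u ∈ F f)
    (K : Language T) (hK : HasGSH K 0) : HasGSH (substLang F c K) 0 := by
  obtain ⟨e, rfl, he⟩ := hK
  induction e with
  | zero =>
    change HasGSH (substLang F c 0) 0
    rw [subst_zero]
    exact HasGSH.zero
  | one =>
    change HasGSH (substLang F c 1) 0
    rw [subst_one]
    exact HasGSH.one
  | char f =>
    change HasGSH (substLang F c ({[f]} : Language T)) 0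
    rw [subst_char]
    exact (hF f).mul (HasGSH.char c)
  | plus P Q ihP ihQ =>
    change HasGSH (substLang F c (P.lang + Q.lang)) 0
    have h : max P.height Q.height ≤ 0 := he
    rw [subst_add]
    exact (ihP ((le_max_left _ _).trans h)).add (ihQ ((le_max_right _ _).trans h))
  | comp P Q ihP ihQ =>
    change HasGSH (substLang F c (P.lang * Q.lang)) 0
    have h : max P.height Q.height ≤ 0 := he
    rw [subst_mul]
    exact (ihP ((le_max_left _ _).trans h)).mul (ihQ ((le_max_right _ _).trans h))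
  | compl P ihP =>
    change HasGSH (substLang F c (P.lang)ᶜ) 0
    have h : P.height ≤ 0 := he
    rw [subst_compl F c hc hpart]
    refine HasGSH.inf ?_ (ihP h).compl
    rw [subst_top F c hpart]
    exact HasGSH.one.add (HasGSH.top.mul (HasGSH.char c))
  | star P _ =>
    have h : P.height + 1 ≤ 0 := he
    exact absurd h (by omega)

end Vale.Agent.H88
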