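import Vale.Agent.H88.SF.Rel
import Vale.Agent.H88.SF.Subst
import Vale.Agent.H88.SF.SchutzDecomp

/-!
# Counter-free automata accept star-free languages (board task SF-MAIN)

The classical theorem of Schutzenberger and McNaughton-Papert in automaton form: all path
languages of a counter-free finite deterministic automaton are star-free.  Induction on the
number of states and, inside, on the number of letters; the decomposition identity is
`dec_pathLang` (file SchutzDecomp).
-/

namespace Vale.Agent.H88

open Language

universe u

section schutzAux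

variable {σ α : Type u}

/-- Step 1: if every letter fixes every state, the path languages are `⊤` or `0`. -/
theorem schutz_triv (δ : σ → α → σ) (hfix : ∀ a q, δ q a = q) (q q' : σ) :
    HasGSH (pathLang δ q q') 0 := by
  have hw : ∀ (w : List α) (s : σ), w.foldl δ s = s := by
    intro w
    induction w with
    | nil => intro s; rfl
    | cons a w ih => intro s; rw [List.foldl_cons, hfix, ih]
  by_cases hq : q = q'
  · have e : pathLang δ q q' = ⊤ := by
      ext w
      constructor
      · intro _; trivial
      · intro _
        show w.foldl δ q = q'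
        rw [hw, hq]
    rw [e]; exact HasGSH.top
  · have e : pathLang δ q q' = 0 := by
      ext w
      constructor
      · intro hwm
        exfalso
        apply hq
        have h1 : w.foldl δ q = q' := hwm
        rw [hw] at h1
        exact h1
      · intro h
        exact absurd h (Language.notMem_zero w)
    rw [e]; exact HasGSH.zero

/-- Step 2: a letter that moves some state does not act injectively. -/
theorem schutz_not_inj [Finite σ] (δ : σ → α → σ) (h : CounterFree δ) (c : α) (q₀ : σ)
    (hq₀ : δ q₀ c ≠ q₀) : ¬ Function.Injective (fun q => δ q c) := by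
  intro hinj
  have key : ∀ i j : ℕ, i < j →
      (fun q => δ q c)^[i] q₀ = (fun q => δ q c)^[j] q₀ → False := by
    intro i j hlt he
    have hj : j = i + (j - i) := by omega
    rw [hj, Function.iterate_add_apply] at he
    have h2 : q₀ = (fun q => δ q c)^[j - i] q₀ := (hinj.iterate i) he
    have h3 : [c].foldl δ q₀ = q₀ := h [c] q₀ (j - i) (by omega) h2.symm
    exact hq₀ h3
  obtain ⟨i, j, hij, he⟩ :=
    Finite.exists_ne_map_eq_of_infinite (fun i : ℕ => (fun q => δ q c)^[i] q₀)
  rcases lt_or_gt_of_ne hij with hlt | hgt
  · exact key i j hlt he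
  · exact key j i hgt he.symm

/-- Step 3: restricting the alphabet keeps counter-freeness. -/
theorem schutz_cf_sub (δ : σ → α → σ) (h : CounterFree δ) (P : α → Prop) :
    CounterFree (fun (p : σ) (b : {a : α // P a}) => δ p b.1) := by
  intro t q n hn hit
  have e : ∀ s : σ, t.foldl (fun (p : σ) (b : {a : α // P a}) => δ p b.1) s
      = (t.map Subtype.val).foldl δ s := by
    intro s; rw [List.foldl_map]
  have e2 : (fun s => t.foldl (fun (p : σ) (b : {a : α // P a}) => δ p b.1) s)
      = (fun s => (t.map Subtype.val).foldl δ s) := funext e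
  rw [e2] at hit
  rw [e]
  exact h _ q n hn hit

/-- Step 5: an automaton whose letters act like words of a counter-free automaton on an
embedded set of states is counter-free. -/
theorem schutz_cf_lift {σ' T : Type*} (δ : σ → α → σ) (h : CounterFree δ) (ι : σ' → σ)
    (hι : Function.Injective ι) (δ' : σ' → T → σ') (W : T → List α)
    (hW : ∀ q f, ι (δ' q f) = (W f).foldl δ (ι q)) : CounterFree δ' := by
  have key : ∀ (τ : List T) (q : σ'), ι (τ.foldl δ' q) = (τ.flatMap W).foldl δ (ι q) := by
    intro τ
    induction τ with
    | nil => intro q; rfl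
    | cons f τ ih =>
      intro q
      rw [List.foldl_cons, ih, hW, List.flatMap_cons, List.foldl_append]
  intro τ q n hn hit
  apply hι
  rw [key]
  apply h _ (ι q) n hn
  have semi : ∀ m : ℕ, ∀ s : σ', ι ((fun s => τ.foldl δ' s)^[m] s)
      = (fun s => (τ.flatMap W).foldl δ s)^[m] (ι s) := by
    intro m
    induction m with
    | zero => intro s; rfl
    | succ m ih =>
      intro s
      rw [Function.iterate_succ_apply, Function.iterate_succ_apply, ih, key]
  rw [← semi, hit]

/-- Step 4: the class of the `c`-free words acting like `f` is star-free. -/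
theorem schutz_F [Fintype σ] [Nonempty σ] (δ : σ → α → σ) (c : α) (f : σ → σ)
    (hL : ∀ q q', HasGSH (cfreeLang δ c q q') 0) :
    HasGSH ({w | c ∉ w ∧ ∀ q, w.foldl δ q = f q} : Language α) 0 := by
  have e : ({w | c ∉ w ∧ ∀ q, w.foldl δ q = f q} : Language α)
      = (⨆ q : σ, (cfreeLang δ c q (f q))ᶜ)ᶜ := by
    ext w
    constructor
    · rintro ⟨hc, hw⟩ hmem
      obtain ⟨q, hq⟩ := mem_iSup_lang.mp hmem
      exact hq ⟨hc, hw q⟩
    · intro hno
      have hall : ∀ q, w ∈ cfreeLang δ c q (f q) := by
        intro q
        by_contra hcon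
        exact hno (mem_iSup_lang.mpr ⟨q, hcon⟩)
      obtain ⟨q0⟩ := ‹Nonempty σ›
      exact ⟨(hall q0).1, fun q => (hall q).2⟩
  rw [e]
  exact (HasGSH.iSup _ fun q => (hL q (f q)).compl).compl

end schutzAux

/-- The induction: on the number of states and, inside, on the number of letters. -/
theorem schutz_aux : ∀ n k : ℕ, ∀ (σ α : Type u) [Fintype σ] [Fintype α],
    Fintype.card σ ≤ n → Fintype.card α ≤ k → ∀ δ : σ → α → σ, CounterFree δ →
    ∀ q q' : σ, HasGSH (pathLang δ q q') 0 := by
  classical
  intro n
  induction n with
  | zero =>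
    intro k σ α _ _ hσ _ δ _ q _
    have h0 : Fintype.card σ = 0 := Nat.le_zero.mp hσ
    exact ((Fintype.card_eq_zero_iff.mp h0).false q).elim
  | succ n ihn =>
    intro k
    induction k with
    | zero =>
      intro σ α _ _ hσ hα δ hcf q q'
      have hE : IsEmpty α := Fintype.card_eq_zero_iff.mp (Nat.le_zero.mp hα)
      exact schutz_triv δ (fun a => isEmptyElim a) q q'
    | succ k ihk =>
      intro σ α _ _ hσ hα δ hcf q q'
      by_cases hfix : ∀ a q, δ q a = q
      · exact schutz_triv δ hfix q q'
      · push Not at hfix
        obtain ⟨c, q₀, hq₀⟩ := hfix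
        have hninj := schutz_not_inj δ hcf c q₀ hq₀
        have hnsurj : ¬ Function.Surjective (fun q => δ q c) :=
          fun hs => hninj (Finite.injective_iff_surjective.mpr hs)
        have hex : ∃ x : σ, x ∉ Set.range (fun q => δ q c) := by
          by_contra hcon
          push Not at hcon
          exact hnsurj (fun x => hcon x)
        obtain ⟨x, hx⟩ := hex
        have hσ' : Fintype.card {q : σ // q ∈ Set.range (fun q => δ q c)} ≤ n := by
          have h1 := Fintype.card_subtype_lt
            (p := fun q : σ => q ∈ Set.range (fun q => δ q c)) hx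
          omega
        have hB : Fintype.card {a : α // a ≠ c} ≤ k := by
          have h1 := Fintype.card_subtype_lt (p := fun a : α => a ≠ c) (x := c)
            (fun hcc => hcc rfl)
          omega
        have hLB : ∀ p p' : σ, HasGSH (cfreeLang δ c p p') 0 := by
          intro p p'
          have h1 := ihk σ {a : α // a ≠ c} hσ hB (fun p b => δ p b.1)
            (schutz_cf_sub δ hcf (fun a => a ≠ c)) p p'
          have h2 := hasGSH_map_subtype (fun a : α => a ≠ c) _ h1
          rw [← dec_map_val δ c p p']
          exact h2
        have hne : Nonempty σ := ⟨q⟩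
        have hT : ∀ w : List α, c ∉ w →
            ∃ f : {f : σ → σ // ∃ u : List {a : α // a ≠ c},
              ∀ q, u.foldl (fun p b => δ p b.1) q = f q}, ∀ q, w.foldl δ q = f.1 q := by
          intro w hw
          obtain ⟨u, hu⟩ : ∃ u : List {a : α // a ≠ c}, u.map Subtype.val = w := by
            refine ⟨w.pmap (fun a ha => (⟨a, ha⟩ : {a : α // a ≠ c}))
              (fun a ha hac => hw (hac ▸ ha)), ?_⟩
            rw [List.map_pmap]
            simp
          refine ⟨⟨fun q => w.foldl δ q, u, fun q => ?_⟩, fun q => rfl⟩
          show List.foldl (fun p (b : {a : α // a ≠ c}) => δ p b.1) q u = w.foldl δ q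
          rw [← hu, List.foldl_map]
        have hF0 : ∀ f : {f : σ → σ // ∃ u : List {a : α // a ≠ c},
              ∀ q, u.foldl (fun p b => δ p b.1) q = f q},
            HasGSH ({w | c ∉ w ∧ ∀ q, w.foldl δ q = f.1 q} : Language α) 0 :=
          fun f => schutz_F δ c f.1 hLB
        have hpart : ∀ u : List α, c ∉ u →
            ∃! f : {f : σ → σ // ∃ u : List {a : α // a ≠ c},
              ∀ q, u.foldl (fun p b => δ p b.1) q = f q},
              u ∈ ({w | c ∉ w ∧ ∀ q, w.foldl δ q = f.1 q} : Language α) := by
          intro u hu
          obtain ⟨f, hf⟩ := hT u hu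
          refine ⟨f, ⟨hu, hf⟩, ?_⟩
          intro g hg
          apply Subtype.ext
          funext q
          rw [← hg.2 q, hf q]
        have hcf' : CounterFree
            (fun (q : {q : σ // q ∈ Set.range (fun q => δ q c)})
              (f : {f : σ → σ // ∃ u : List {a : α // a ≠ c},
                ∀ q, u.foldl (fun p b => δ p b.1) q = f q}) =>
              (⟨δ (f.1 q.1) c, ⟨f.1 q.1, rfl⟩⟩ :
                {q : σ // q ∈ Set.range (fun q => δ q c)})) := by
          refine schutz_cf_lift δ hcf Subtype.val Subtype.val_injective _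
            (fun f => (Classical.choose f.2).map Subtype.val ++ [c]) ?_
          intro q f
          show δ (f.1 q.1) c = _
          rw [List.foldl_append, List.foldl_map, Classical.choose_spec f.2 q.1]
          rfl
        have hsub : ∀ q₂ q₃ : {q : σ // q ∈ Set.range (fun q => δ q c)},
            HasGSH (substLang
              (fun f : {f : σ → σ // ∃ u : List {a : α // a ≠ c},
                ∀ q, u.foldl (fun p b => δ p b.1) q = f q} =>
                ({w | c ∉ w ∧ ∀ q, w.foldl δ q = f.1 q} : Language α)) c
              (pathLang (fun (q : {q : σ // q ∈ Set.range (fun q => δ q c)})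
                (f : {f : σ → σ // ∃ u : List {a : α // a ≠ c},
                  ∀ q, u.foldl (fun p b => δ p b.1) q = f q}) =>
                (⟨δ (f.1 q.1) c, ⟨f.1 q.1, rfl⟩⟩ :
                  {q : σ // q ∈ Set.range (fun q => δ q c)})) q₂ q₃)) 0 := by
          intro q₂ q₃
          exact hasGSH_substLang _ c hF0 (fun f u hu => hu.1) hpart _
            (ihn _ _ _ hσ' le_rfl _ hcf' q₂ q₃)
        have hdec := dec_pathLang δ c
          (Subtype.val : {q : σ // q ∈ Set.range (fun q => δ q c)} → σ)
          (fun q₁ => ⟨δ q₁ c, q₁, rfl⟩) (fun _ => rfl)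
          (fun f : {f : σ → σ // ∃ u : List {a : α // a ≠ c},
              ∀ q, u.foldl (fun p b => δ p b.1) q = f q} => f.1) hT
          (fun f => ({w | c ∉ w ∧ ∀ q, w.foldl δ q = f.1 q} : Language α))
          (fun f w => Iff.rfl)
          (fun q f => ⟨δ (f.1 q.1) c, ⟨f.1 q.1, rfl⟩⟩) (fun q f => rfl) q q'
        rw [hdec]
        refine HasGSH.add (hLB q q') (HasGSH.iSup _ fun q₁ => HasGSH.iSup _ fun q₃ => ?_)
        exact (((hLB q q₁).mul (HasGSH.char c)).mul (hsub _ q₃)).mul (hLB q₃.1 q')

/-- **Counter-free automata accept star-free languages.** -/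
theorem hasGSH_pathLang_of_counterFree {σ α : Type u} [Fintype σ] [Fintype α]
    (δ : σ → α → σ) (h : CounterFree δ) (q q' : σ) : HasGSH (pathLang δ q q') 0 :=
  schutz_aux (Fintype.card σ) (Fintype.card α) σ α le_rfl le_rfl δ h q q'

end Vale.Agent.H88
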