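import Vale.Agent.H88.SF.Thin
import Vale.Agent.H88.SF.CoreB

/-!
# The four families of good blocks used for counting letters at a clock value
-/

namespace Vale.Agent.H88

universe u

variable {α : Type u} {p : ℕ} [DecidableEq α]

/-- Good blocks of the first kind: first letter `x`, last letter different from `x`. -/
def good1 (x : α) : Option α → α → Bool := fun o l => decide (o = some x ∧ l ≠ x)

/-- Good blocks of the second kind: first letter different from `x` (or no first letter),
last letter `x`. -/
def good2 (x : α) : Option α → α → Bool := fun o l => decide (o ≠ some x ∧ l = x)

/-- Blocks ending with `x`. -/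
def goodN (x : α) : Option α → α → Bool := fun _ l => decide (l = x)

/-- No block is good. -/
def good0 : Option α → α → Bool := fun _ _ => false

/-- Indicator: the clock is not at `ρ` and the current block started with the letter `x`. -/
def thinE (s : α → ZMod p) (ρ : ZMod p) (x : α) (w : List α) : ℕ :=
  if (w.foldl (thinStep s ρ (good1 x)) (0, none)).1 ≠ ρ ∧
      (w.foldl (thinStep s ρ (good1 x)) (0, none)).2 = some x then 1 else 0

end Vale.Agent.H88
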