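import Vale.Agent.H88.SF.Thin

/-!
# Infinite runs of the thin clock automaton (board task SF-THINSEQ)

EXACT statements to prove (do not change them): `sum_period`, `periodic_mul`, `thinSeq_fst`,
`thinSeq_fst_period`, `thinSeq_keep`, `thinSeq_hits`, `thinSeq_allx_false`.

Setting: `S : ℕ → ZMod p × Option α` is an infinite run of `thinStep s ρ good` (file Thin)
reading the infinite word `W : ℕ → α`, i.e. `hS : ∀ i, S (i + 1) = thinStep s ρ good (S i) (W i)`.
Use the lemmas of file Thin: `thinStep_fst` (the clock advances by `s a`), `thinStep_of_ne`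
(away from `ρ` the second component is kept), `thinStep_leave`, `thinStep_arrive`.

* `sum_period`: a sum over a full period does not depend on the starting point (induction on
  `i`, `Finset.sum_range_succ` and `Finset.sum_range_succ'`).
* `thinSeq_fst`: induction on `k`.
* `thinSeq_fst_period`: induction on `k` with `thinSeq_fst` and `sum_period`.
* `thinSeq_keep`: induction on `k` with `thinStep_of_ne`.
* `thinSeq_hits`: with `d := ∑ j ∈ range L, s (W j) ≠ 0` in the field `ZMod p`, take
  `k := ((r - (S i).1) / d).val`; then `k • d = r - (S i).1` (`ZMod.natCast_zmod_val`,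
  `nsmul_eq_mul`, `div_mul_cancel₀`).
* `thinSeq_allx_false`: all letters are `x`, `s x ≠ 0`, the clock is `ρ` at time `i₀`. By
  induction `S (i₀ + k) = (ρ + k • s x, some x)` for `1 ≤ k ≤ p - 1` (the clock `ρ + k • s x`
  differs from `ρ` for `0 < k < p` because `(k : ZMod p) ≠ 0` then), and at time `i₀ + p` the
  clock is `ρ` again, the block is `x ... x`, not good, so `S (i₀ + p) = (ρ, none)`:
  contradiction with `havoid`.
-/

namespace Vale.Agent.H88

universe u

variable {α : Type u} {p : ℕ}

theorem sum_period (f : ℕ → ZMod p) {L : ℕ} (hf : ∀ i, f (i + L) = f i) (i : ℕ) :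
    ∑ j ∈ Finset.range L, f (i + j) = ∑ j ∈ Finset.range L, f j := by
  induction i with
  | zero => simp
  | succ i ih =>
    rw [← ih]
    have h1 := Finset.sum_range_succ (fun j => f (i + j)) L
    have h2 := Finset.sum_range_succ' (fun j => f (i + j)) L
    have h3 : ∑ j ∈ Finset.range L, f (i + 1 + j) = ∑ j ∈ Finset.range L, f (i + (j + 1)) := by
      apply Finset.sum_congr rfl
      intro j _
      congr 1
      omega
    rw [h3]
    have h4 : f (i + L) = f (i + 0) := by
      rw [hf, add_zero]
    have h5 := h1.symm.trans h2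
    simp only [h4] at h5
    exact (add_right_cancel h5).symm

theorem periodic_mul {W : ℕ → α} {L : ℕ} (hW : ∀ i, W (i + L) = W i) (i k : ℕ) :
    W (i + k * L) = W i := by
  induction k with
  | zero => simp
  | succ k ih =>
    have h : i + (k + 1) * L = i + k * L + L := by ring
    rw [h, hW, ih]

variable (s : α → ZMod p) (ρ : ZMod p) (good : Option α → α → Bool)
  {W : ℕ → α} {S : ℕ → ZMod p × Option α}

theorem thinSeq_fst (hS : ∀ i, S (i + 1) = thinStep s ρ good (S i) (W i)) (i k : ℕ) :
    (S (i + k)).1 = (S i).1 + ∑ j ∈ Finset.range k, s (W (i + j)) := by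
  induction k with
  | zero => simp
  | succ k ih =>
    rw [← add_assoc, hS, thinStep_fst, ih, Finset.sum_range_succ, add_assoc]

theorem thinSeq_fst_period (hS : ∀ i, S (i + 1) = thinStep s ρ good (S i) (W i)) {L : ℕ}
    (hW : ∀ i, W (i + L) = W i) (i k : ℕ) :
    (S (i + k * L)).1 = (S i).1 + k • ∑ j ∈ Finset.range L, s (W j) := by
  induction k with
  | zero => simp
  | succ k ih =>
    have h1 : i + (k + 1) * L = i + k * L + L := by ring
    have h2 : ∑ j ∈ Finset.range L, s (W (i + k * L + j)) = ∑ j ∈ Finset.range L, s (W j) :=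
      sum_period (fun j => s (W j)) (fun j => by
        show s (W (j + L)) = s (W j)
        rw [hW]) (i + k * L)
    rw [h1, thinSeq_fst s ρ good hS, ih, h2, succ_nsmul, add_assoc]

theorem thinSeq_keep (hS : ∀ i, S (i + 1) = thinStep s ρ good (S i) (W i)) (i k : ℕ)
    (h : ∀ j, j ≤ k → (S (i + j)).1 ≠ ρ) : (S (i + k)).2 = (S i).2 := by
  induction k with
  | zero => simp
  | succ k ih =>
    have ih' := ih (fun j hj => h j (Nat.le_succ_of_le hj))
    have h1 : (S (i + k)).1 ≠ ρ := h k (Nat.le_succ k)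
    have h2 : (S (i + k)).1 + s (W (i + k)) ≠ ρ := by
      have h3 := h (k + 1) le_rfl
      rw [← add_assoc, hS, thinStep_fst] at h3
      exact h3
    rw [← add_assoc, hS, thinStep_of_ne s ρ good h1 h2]
    exact ih'

theorem thinSeq_hits [Fact p.Prime] (hS : ∀ i, S (i + 1) = thinStep s ρ good (S i) (W i))
    {L : ℕ} (hW : ∀ i, W (i + L) = W i) (hd : ∑ j ∈ Finset.range L, s (W j) ≠ 0) (i : ℕ)
    (r : ZMod p) : ∃ k, (S (i + k * L)).1 = r := by
  have : NeZero p := ⟨(Fact.out : p.Prime).ne_zero⟩
  refine ⟨((r - (S i).1) / ∑ j ∈ Finset.range L, s (W j)).val, ?_⟩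
  rw [thinSeq_fst_period s ρ good hS hW, nsmul_eq_mul, ZMod.natCast_zmod_val,
    div_mul_cancel₀ _ hd]
  ring

theorem thinSeq_allx_false [Fact p.Prime] (hS : ∀ i, S (i + 1) = thinStep s ρ good (S i) (W i))
    (x : α) (hx : s x ≠ 0) (hbad : good (some x) x = false) (hW : ∀ i, W i = x) (i₀ : ℕ)
    (h0 : (S i₀).1 = ρ) (havoid : ∀ i, S i ≠ (ρ, none)) : False := by
  have hp2 : 2 ≤ p := (Fact.out : p.Prime).two_le
  -- the clock leaves `ρ` for `0 < j < p` steps
  have hne : ∀ j : ℕ, 0 < j → j < p → ρ + j • s x ≠ ρ := by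
    intro j hj0 hjp h
    have h1 : j • s x = 0 := add_left_cancel (h.trans (add_zero ρ).symm)
    rw [nsmul_eq_mul] at h1
    rcases mul_eq_zero.1 h1 with h2 | h2
    · have h3 : p ∣ j := (ZMod.natCast_eq_zero_iff j p).1 h2
      exact absurd (Nat.le_of_dvd hj0 h3) (not_le.2 hjp)
    · exact hx h2
  -- the run between two visits of `ρ`
  have hrun : ∀ k : ℕ, k + 1 < p → S (i₀ + (k + 1)) = (ρ + (k + 1) • s x, some x) := by
    intro k
    induction k with
    | zero =>
      intro _
      have h2 : (S i₀).1 + s x ≠ ρ := by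
        rw [h0]
        have := hne 1 Nat.one_pos (by omega)
        rwa [one_nsmul] at this
      rw [← add_assoc, hS, hW, thinStep_leave s ρ good h0 h2, h0, zero_add, one_nsmul]
    | succ k ih =>
      intro hk
      have ih' := ih (by omega)
      have h1 : (S (i₀ + (k + 1))).1 ≠ ρ := by
        rw [ih']
        exact hne (k + 1) (Nat.succ_pos k) (by omega)
      have h2 : (S (i₀ + (k + 1))).1 + s x ≠ ρ := by
        rw [ih']
        have := hne (k + 1 + 1) (Nat.succ_pos _) hk
        rwa [succ_nsmul, ← add_assoc] at this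
      rw [← add_assoc, hS, hW, thinStep_of_ne s ρ good h1 h2, ih']
      show (ρ + (k + 1) • s x + s x, some x) = (ρ + (k + 1 + 1) • s x, some x)
      rw [succ_nsmul (s x) (k + 1), add_assoc]
  obtain ⟨q, hq⟩ : ∃ q, q + 2 = p := ⟨p - 2, by omega⟩
  have hlast := hrun q (by omega)
  have hp0 : (q + 1 + 1) • s x = 0 := by
    rw [show q + 1 + 1 = p by omega, nsmul_eq_mul, CharP.cast_eq_zero, zero_mul]
  have h1 : (S (i₀ + (q + 1))).1 ≠ ρ := by
    rw [hlast]
    exact hne (q + 1) (Nat.succ_pos q) (by omega)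
  have h2 : (S (i₀ + (q + 1))).1 + s x = ρ := by
    rw [hlast]
    show ρ + (q + 1) • s x + s x = ρ
    rw [add_assoc, ← succ_nsmul, hp0, add_zero]
  have h3 := hS (i₀ + (q + 1))
  rw [hW, thinStep_arrive s ρ good h2, if_neg h1, hlast] at h3
  simp only [hbad] at h3
  exact havoid _ h3

end Vale.Agent.H88
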